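import Mathlib

/-!
# P032: the state at a three-coloured point

From the local functions `lam a x` (parities of the `abc`-triangles in the unit disc about `x`)
to the mod 2 cycle `zz` at a point with three colours.
-/

open Set Filter Topology Metric

noncomputable section

namespace Vale.Agent.P032.S5

/-- the properties of the functions `lam` -/
structure LamI (K : ℂ → Set (Fin 6)) (B : Set ℂ)
    (lam : Fin 6 → ℂ → Fin 6 → Fin 6 → ZMod 2) : Prop where
  symm : ∀ a x b c, lam a x b c = lam a x c b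
  diag : ∀ a x b, lam a x b b = 0
  self : ∀ a x b, lam a x a b = 0
  loc : ∀ a, ∀ x ∈ B, a ∈ K x → ∀ᶠ x' in 𝓝[{y | a ∈ K y}] x, lam a x' = lam a x
  euler : ∀ a, ∀ x ∈ B, a ∈ K x → ∀ b, b ≠ a → ∑ c, lam a x b c = 0
  agree : ∀ x ∈ B, ∀ a ∈ K x, ∀ b ∈ K x, ∀ c, lam a x b c = lam b x a c
  supp : ∀ x ∈ B, ∀ a ∈ K x, ∀ b c, a ≠ b → a ≠ c → b ≠ c →
    (∀ u ∈ closedBall x 1, a ∈ K u → b ∈ K u → c ∈ K u → ∃ t, (t = a ∨ t = b ∨ t = c) ∧
      ¬ K u ⊆ {a, t} ∧ ∀ᶠ w in 𝓝[closedBall x 1 \ {u}] u, t ∉ K w) → lam a x b c = 0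
  wind : ∀ x ∈ B, ∀ a b c, a ≠ b → a ≠ c → b ≠ c → K x = {a, b, c} → ∀ d e, d ≠ e →
    d ∉ K x → e ∉ K x → lam a x d e + lam b x d e + lam c x d e = 1

open Classical in
/-- the cycle at a three-coloured point -/
def zz (K : ℂ → Set (Fin 6)) (lam : Fin 6 → ℂ → Fin 6 → Fin 6 → ZMod 2) (x : ℂ)
    (p q r : Fin 6) : ZMod 2 :=
  if p ∈ K x then lam p x q r else if q ∈ K x then lam q x p r else if r ∈ K x then lam r x p q
  else if p ≠ q ∧ p ≠ r ∧ q ≠ r then 1 else 0

variable {K : ℂ → Set (Fin 6)} {B : Set ℂ} {lam : Fin 6 → ℂ → Fin 6 → Fin 6 → ZMod 2}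

theorem zz_of_mem {x : ℂ} {p : Fin 6} (hp : p ∈ K x) (q r : Fin 6) :
    zz K lam x p q r = lam p x q r := by
  simp [zz, hp]

theorem zz_swap12 (h : LamI K B lam) {x : ℂ} (hx : x ∈ B) (p q r : Fin 6) :
    zz K lam x p q r = zz K lam x q p r := by
  unfold zz
  by_cases hp : p ∈ K x
  · by_cases hq : q ∈ K x
    · simp only [hp, hq, if_true]
      exact h.agree x hx p hp q hq r
    · simp [hp, hq]
  · by_cases hq : q ∈ K x
    · simp [hp, hq]
    · by_cases hr : r ∈ K x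
      · simp only [hp, hq, hr, if_true, if_false]
        exact h.symm r x p q
      · simp only [hp, hq, hr, if_false]
        have : (p ≠ q ∧ p ≠ r ∧ q ≠ r) ↔ (q ≠ p ∧ q ≠ r ∧ p ≠ r) := by
          constructor
          · rintro ⟨h1, h2, h3⟩; exact ⟨h1.symm, h3, h2⟩
          · rintro ⟨h1, h2, h3⟩; exact ⟨h1.symm, h3, h2⟩
        simp [this]

theorem zz_swap23 (h : LamI K B lam) {x : ℂ} (hx : x ∈ B) (p q r : Fin 6) :
    zz K lam x p q r = zz K lam x p r q := by
  unfold zz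
  by_cases hp : p ∈ K x
  · simp only [hp, if_true]; exact h.symm p x q r
  · by_cases hq : q ∈ K x
    · by_cases hr : r ∈ K x
      · simp only [hp, hq, hr, if_true, if_false]
        rw [h.symm q x p r, h.symm r x p q]
        exact h.agree x hx q hq r hr p
      · simp [hp, hq, hr]
    · by_cases hr : r ∈ K x
      · simp [hp, hq, hr]
      · simp only [hp, hq, hr, if_false]
        have : (p ≠ q ∧ p ≠ r ∧ q ≠ r) ↔ (p ≠ r ∧ p ≠ q ∧ r ≠ q) := by
          constructor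
          · rintro ⟨h1, h2, h3⟩; exact ⟨h2, h1, h3.symm⟩
          · rintro ⟨h1, h2, h3⟩; exact ⟨h2, h1, h3.symm⟩
        simp [this]

theorem zz_diag (h : LamI K B lam) (x : ℂ) (p q : Fin 6) : zz K lam x p q q = 0 := by
  unfold zz
  by_cases hp : p ∈ K x
  · simp [hp, h.diag]
  · by_cases hq : q ∈ K x
    · simp only [hp, hq, if_true, if_false]
      rw [h.symm, h.self]
    · simp [hp, hq]

theorem zz_self (h : LamI K B lam) {x : ℂ} (hx : x ∈ B) (p q : Fin 6) :
    zz K lam x p p q = 0 := by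
  rw [zz_swap23 h hx, zz_swap12 h hx, zz_diag h]

/-- a cofactor: the six colours are three colours and the three others -/
theorem exists_third {T : Set (Fin 6)} (hT : T.ncard = 3) {b c : Fin 6} (hb : b ∉ T) (hc : c ∉ T)
    (hbc : b ≠ c) : ∃ f, f ∉ T ∧ f ≠ b ∧ f ≠ c ∧ ∀ g, g ∉ T → g = b ∨ g = c ∨ g = f := by
  classical
  have h1 : Tᶜ.ncard = 3 := by
    have := Set.ncard_add_ncard_compl T
    rw [hT, Nat.card_eq_fintype_card, Fintype.card_fin] at this
    omega
  have h2 : ∃ f ∈ Tᶜ, f ≠ b ∧ f ≠ c := by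
    by_contra hcon
    push Not at hcon
    have h3 : Tᶜ ⊆ {b, c} := by
      intro f hf
      by_cases hfb : f = b
      · exact Or.inl hfb
      · exact Or.inr (hcon f hf hfb)
    have h4 := Set.ncard_le_ncard h3 (Set.toFinite _)
    rw [Set.ncard_pair hbc, h1] at h4
    omega
  obtain ⟨f, hf, hfb, hfc⟩ := h2
  refine ⟨f, hf, hfb, hfc, fun g hg => ?_⟩
  have h5 : ({b, c, f} : Set (Fin 6)) = Tᶜ := by
    refine Set.eq_of_subset_of_ncard_le ?_ ?_ (Set.toFinite _)
    · rintro m (rfl | rfl | rfl)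
      · exact hb
      · exact hc
      · exact hf
    · rw [h1, Set.ncard_eq_three.2 ⟨b, c, f, hbc, hfb.symm, hfc.symm, rfl⟩]
  have h6 : g ∈ ({b, c, f} : Set (Fin 6)) := h5 ▸ hg
  exact h6

/-- the state is a cycle -/
theorem zz_cycle (h : LamI K B lam) {x : ℂ} (hx : x ∈ B) (hT : (K x).ncard = 3) {b c : Fin 6}
    (hbc : b ≠ c) : ∑ a, zz K lam x a b c = 0 := by
  by_cases hb : b ∈ K x
  · have : ∀ a, zz K lam x a b c = lam b x c a := by
      intro a
      rw [zz_swap12 h hx, zz_of_mem hb, h.symm]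
    simp only [this]
    exact h.euler b x hx hb c hbc.symm
  · by_cases hc : c ∈ K x
    · have : ∀ a, zz K lam x a b c = lam c x b a := by
        intro a
        rw [zz_swap23 h hx, zz_swap12 h hx, zz_of_mem hc, h.symm]
      simp only [this]
      exact h.euler c x hx hc b hbc
    · obtain ⟨f, hf, hfb, hfc, hall⟩ := exists_third hT hb hc hbc
      obtain ⟨p, q, r, hpq, hpr, hqr, hK⟩ := Set.ncard_eq_three.1 hT
      have hmem : ∀ m, m ∈ K x ↔ m = p ∨ m = q ∨ m = r := by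
        intro m; rw [hK]; simp
      have hp : p ∈ K x := (hmem p).2 (Or.inl rfl)
      have hq : q ∈ K x := (hmem q).2 (Or.inr (Or.inl rfl))
      have hr : r ∈ K x := (hmem r).2 (Or.inr (Or.inr rfl))
      have huniv : (Finset.univ : Finset (Fin 6)) = {p, q, r, f, b, c} := by
        ext m
        simp only [Finset.mem_univ, Finset.mem_insert, Finset.mem_singleton, true_iff]
        by_cases hm : m ∈ K x
        · rcases (hmem m).1 hm with h1 | h1 | h1
          · exact Or.inl h1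
          · exact Or.inr (Or.inl h1)
          · exact Or.inr (Or.inr (Or.inl h1))
        · rcases hall m hm with h1 | h1 | h1
          · exact Or.inr (Or.inr (Or.inr (Or.inr (Or.inl h1))))
          · exact Or.inr (Or.inr (Or.inr (Or.inr (Or.inr h1))))
          · exact Or.inr (Or.inr (Or.inr (Or.inl h1)))
      have hne : ∀ {m n : Fin 6}, m ∈ K x → n ∉ K x → m ≠ n := by
        intro m n hm hn hmn
        exact hn (hmn ▸ hm)
      rw [huniv, Finset.sum_insert, Finset.sum_insert, Finset.sum_insert, Finset.sum_insert,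
        Finset.sum_insert, Finset.sum_singleton]
      · rw [zz_of_mem hp, zz_of_mem hq, zz_of_mem hr, zz_self h hx b c,
          zz_swap12 h hx c b c, zz_diag h x b c]
        have h1 : zz K lam x f b c = 1 := by
          unfold zz
          simp [hf, hb, hc, hfb, hfc, hbc]
        rw [h1]
        have h2 := h.wind x hx p q r hpq hpr hqr hK b c hbc hb hc
        have h3 : lam p x b c + (lam q x b c + (lam r x b c + (1 + (0 + 0)))) =
            (lam p x b c + lam q x b c + lam r x b c) + 1 := by ring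
        rw [h3, h2]
        decide
      · simpa using hbc
      · simp [hfb, hfc]
      · simp [hne hr hf, hne hr hb, hne hr hc]
      · simp [hqr, hne hq hf, hne hq hb, hne hq hc]
      · simp [hpq, hpr, hne hp hf, hne hp hb, hne hp hc]

/-- the value at the complement of the palette -/
theorem zz_compl {x : ℂ} {d e f : Fin 6} (hd : d ∉ K x) (he : e ∉ K x) (hf : f ∉ K x)
    (hde : d ≠ e) (hdf : d ≠ f) (hef : e ≠ f) : zz K lam x d e f = 1 := by
  unfold zz
  simp [hd, he, hf, hde, hdf, hef]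

/-! ## support, complementary pairs -/

/-- the geometric inputs: on `D` (which contains the closed unit discs about the points of `B`)
at most three colours, complementary palettes at distance at least two, and the lens lemma -/
structure GeoI (K : ℂ → Set (Fin 6)) (B D : Set ℂ) : Prop where
  sub : ∀ x ∈ B, closedBall x 1 ⊆ D
  three : ∀ x ∈ D, (K x).ncard ≤ 3
  comp : ∀ u ∈ D, ∀ u' ∈ D, (K u).ncard = 3 → K u' = (K u)ᶜ → 2 ≤ dist u u'
  lens : ∀ v ∈ B, ∀ u u', (K v).ncard = 3 → (K u).ncard = 3 → K u' = (K u)ᶜ → K u ≠ K v →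
    K u' ≠ K v → dist u v = 1 → dist u' v = 1 → dist u u' = 2 →
    (∃ t ∈ K u, ∀ᶠ w in 𝓝[closedBall v 1 \ {u}] u, t ∉ K w) ∨
      ∃ t ∈ K u', ∀ᶠ w in 𝓝[closedBall v 1 \ {u'}] u', t ∉ K w

theorem zz_supp_aux (h : LamI K B lam) {D : Set ℂ} (g : GeoI K B D) {x : ℂ} (hx : x ∈ B)
    {p q r : Fin 6} (hpq : p ≠ q) (hpr : p ≠ r) (hqr : q ≠ r) (hp : p ∈ K x)
    (hz : zz K lam x p q r ≠ 0) : ∃ u ∈ closedBall x 1, K u = {p, q, r} ∧
      ∀ t ∈ K u, ¬ ∀ᶠ w in 𝓝[closedBall x 1 \ {u}] u, t ∉ K w := by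
  rw [zz_of_mem hp] at hz
  by_contra hcon
  push Not at hcon
  refine hz (h.supp x hx p hp q r hpq hpr hqr fun u hu hpu hqu hru => ?_)
  have h3 := g.three u (g.sub x hx hu)
  have hc3 : ({p, q, r} : Set (Fin 6)).ncard = 3 :=
    Set.ncard_eq_three.2 ⟨p, q, r, hpq, hpr, hqr, rfl⟩
  have hKu : K u = {p, q, r} := by
    symm
    refine Set.eq_of_subset_of_ncard_le ?_ (by rw [hc3]; exact h3) (Set.toFinite _)
    rintro m (rfl | rfl | rfl)
    · exact hpu
    · exact hqu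
    · exact hru
  obtain ⟨t, ht, htw⟩ := hcon u hu hKu
  refine ⟨t, by rw [hKu] at ht; exact ht, fun hsub => ?_, htw⟩
  have h4 := Set.ncard_le_ncard hsub (Set.toFinite _)
  have h5 : ({p, t} : Set (Fin 6)).ncard ≤ 2 := by
    have := Set.ncard_insert_le p ({t} : Set (Fin 6))
    rw [Set.ncard_singleton] at this
    exact this
  rw [hKu, hc3] at h4
  omega

/-- a nonzero value of the state at a triple meeting the palette comes from a three-coloured
point of the closed unit disc -/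
theorem zz_supp (h : LamI K B lam) {D : Set ℂ} (g : GeoI K B D) {x : ℂ} (hx : x ∈ B)
    {p q r : Fin 6} (hpq : p ≠ q) (hpr : p ≠ r) (hqr : q ≠ r)
    (hp : p ∈ K x ∨ q ∈ K x ∨ r ∈ K x) (hz : zz K lam x p q r ≠ 0) :
    ∃ u ∈ closedBall x 1, K u = {p, q, r} ∧
      ∀ t ∈ K u, ¬ ∀ᶠ w in 𝓝[closedBall x 1 \ {u}] u, t ∉ K w := by
  rcases hp with hp | hp | hp
  · exact zz_supp_aux h g hx hpq hpr hqr hp hz
  · rw [zz_swap12 h hx] at hz
    obtain ⟨u, hu, hKu, hu2⟩ := zz_supp_aux h g hx hpq.symm hqr hpr hp hz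
    exact ⟨u, hu, by rw [hKu, Set.insert_comm], hu2⟩
  · rw [zz_swap23 h hx, zz_swap12 h hx] at hz
    obtain ⟨u, hu, hKu, hu2⟩ := zz_supp_aux h g hx hpr.symm hqr.symm hpq hp hz
    refine ⟨u, hu, ?_, hu2⟩
    rw [hKu]
    ext m
    simp only [Set.mem_insert_iff, Set.mem_singleton_iff]
    tauto

theorem ncard_triple {p q r : Fin 6} (hpq : p ≠ q) (hpr : p ≠ r) (hqr : q ≠ r) :
    ({p, q, r} : Set (Fin 6)).ncard = 3 :=
  Set.ncard_eq_three.2 ⟨p, q, r, hpq, hpr, hqr, rfl⟩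

/-- a three-set which is not the complement of `T` meets `T` -/
theorem meets {T : Set (Fin 6)} (hT : T.ncard = 3) {p q r : Fin 6} (hpq : p ≠ q) (hpr : p ≠ r)
    (hqr : q ≠ r) (hne : ({p, q, r} : Set (Fin 6)) ≠ Tᶜ) : p ∈ T ∨ q ∈ T ∨ r ∈ T := by
  by_contra hcon
  push Not at hcon
  refine hne (Set.eq_of_subset_of_ncard_le ?_ ?_ (Set.toFinite _))
  · rintro m (rfl | rfl | rfl)
    · exact hcon.1
    · exact hcon.2.1
    · exact hcon.2.2
  · have := Set.ncard_add_ncard_compl T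
    rw [hT, Nat.card_eq_fintype_card, Fintype.card_fin] at this
    rw [ncard_triple hpq hpr hqr]
    omega

/-- **no complementary pairs** in the state, except possibly the palette and its complement -/
theorem zz_no_pair (h : LamI K B lam) {D : Set ℂ} (g : GeoI K B D) {x : ℂ} (hx : x ∈ B)
    (hT : (K x).ncard = 3) {p q r p' q' r' : Fin 6} (hpq : p ≠ q) (hpr : p ≠ r) (hqr : q ≠ r)
    (hpq' : p' ≠ q') (hpr' : p' ≠ r') (hqr' : q' ≠ r')
    (hc : ({p', q', r'} : Set (Fin 6)) = ({p, q, r} : Set (Fin 6))ᶜ)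
    (h1 : ({p, q, r} : Set (Fin 6)) ≠ K x) (h2 : ({p', q', r'} : Set (Fin 6)) ≠ K x)
    (hz : zz K lam x p q r ≠ 0) : zz K lam x p' q' r' = 0 := by
  by_contra hz'
  have hm : p ∈ K x ∨ q ∈ K x ∨ r ∈ K x := by
    refine meets hT hpq hpr hqr fun hcon => h2 ?_
    rw [hc, hcon, compl_compl]
  have hm' : p' ∈ K x ∨ q' ∈ K x ∨ r' ∈ K x := by
    refine meets hT hpq' hpr' hqr' fun hcon => h1 ?_
    rw [hc] at hcon
    exact compl_injective hcon
  obtain ⟨u, hu, hKu, hu2⟩ := zz_supp h g hx hpq hpr hqr hm hz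
  obtain ⟨u', hu', hKu', hu2'⟩ := zz_supp h g hx hpq' hpr' hqr' hm' hz'
  have hcomp : K u' = (K u)ᶜ := by rw [hKu', hKu, hc]
  have h3 : (K u).ncard = 3 := by rw [hKu]; exact ncard_triple hpq hpr hqr
  have hd := g.comp u (g.sub x hx hu) u' (g.sub x hx hu') h3 hcomp
  have hd1 : dist u x ≤ 1 := hu
  have hd2 : dist u' x ≤ 1 := hu'
  have hd3 := dist_triangle_right u u' x
  rcases g.lens x hx u u' hT h3 hcomp (by rw [hKu]; exact h1) (by rw [hKu']; exact h2)
    (by linarith) (by linarith) (by linarith) with ⟨t, ht, htw⟩ | ⟨t, ht, htw⟩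
  · exact hu2 t ht htw
  · exact hu2' t ht htw

/-- a nonzero value of the state at a triple different from the complement of the palette
excludes three-coloured points of the complementary type at distance less than one -/
theorem zz_near (h : LamI K B lam) {D : Set ℂ} (g : GeoI K B D) {x y : ℂ} (hx : x ∈ B)
    (hy : y ∈ D) (hxy : dist x y < 1) {p q r : Fin 6} (hpq : p ≠ q) (hpr : p ≠ r) (hqr : q ≠ r)
    (hp : p ∈ K x ∨ q ∈ K x ∨ r ∈ K x) (hz : zz K lam x p q r ≠ 0) :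
    K y ≠ ({p, q, r} : Set (Fin 6))ᶜ := by
  intro hK
  obtain ⟨u, hu, hKu, -⟩ := zz_supp h g hx hpq hpr hqr hp hz
  have hd := g.comp u (g.sub x hx hu) y hy (by rw [hKu]; exact ncard_triple hpq hpr hqr)
    (by rw [hK, hKu])
  have hd1 : dist u x ≤ 1 := hu
  have hd3 := dist_triangle u x y
  linarith

/-! ## the rule along a component of `F_i ∩ F_j` -/

/-- `lam a` is constant on connected sets of points of colour `a` -/
theorem lam_const (h : LamI K B lam) {a : Fin 6} {C : Set ℂ} (hC : IsPreconnected C)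
    (hCB : C ⊆ B) (hCa : ∀ z ∈ C, a ∈ K z) {x y : ℂ} (hx : x ∈ C) (hy : y ∈ C) :
    lam a x = lam a y := by
  let _ : TopologicalSpace (Fin 6 → Fin 6 → ZMod 2) := ⊥
  have : DiscreteTopology (Fin 6 → Fin 6 → ZMod 2) := ⟨rfl⟩
  refine hC.constant (f := lam a) (fun z hz => ?_) hx hy
  refine tendsto_const_nhds.congr' ?_
  filter_upwards [(h.loc a z (hCB hz) (hCa z hz)).filter_mono (nhdsWithin_mono z hCa)] with w hw
  exact hw.symm

/-- the states at two three-coloured points of a connected subset of `F_i ∩ F_j` agree on the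
triples meeting `{i, j}` -/
theorem zz_eq_of_mem (h : LamI K B lam) {i : Fin 6} {C : Set ℂ} (hC : IsPreconnected C)
    (hCB : C ⊆ B) (hCi : ∀ z ∈ C, i ∈ K z) {x y : ℂ} (hx : x ∈ C) (hy : y ∈ C) (q r : Fin 6) :
    zz K lam x i q r = zz K lam y i q r := by
  rw [zz_of_mem (hCi x hx), zz_of_mem (hCi y hy), lam_const h hC hCB hCi hx hy]

theorem sum6 {i j k l m n : Fin 6} (hnd : [i, j, k, l, m, n].Nodup) (f : Fin 6 → ZMod 2) :
    ∑ a, f a = f i + f j + f k + f l + f m + f n := by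
  have h1 : (Finset.univ : Finset (Fin 6)) = [i, j, k, l, m, n].toFinset :=
    (Finset.eq_univ_of_card _ (by rw [List.toFinset_card_of_nodup hnd]; rfl)).symm
  rw [h1, List.sum_toFinset _ hnd]
  simp only [List.map_cons, List.map_nil, List.sum_cons, List.sum_nil]
  ring

theorem nodup6 {i j k l m n : Fin 6} (hnd : [i, j, k, l, m, n].Nodup) :
    (i ≠ j ∧ i ≠ k ∧ i ≠ l ∧ i ≠ m ∧ i ≠ n) ∧ (j ≠ k ∧ j ≠ l ∧ j ≠ m ∧ j ≠ n) ∧
      (k ≠ l ∧ k ≠ m ∧ k ≠ n) ∧ (l ≠ m ∧ l ≠ n) ∧ m ≠ n := by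
  simp only [List.nodup_cons, List.mem_cons, List.not_mem_nil, or_false, not_or,
    List.nodup_nil, and_true] at hnd
  obtain ⟨⟨hij, hik, hil, him, hin⟩, ⟨hjk, hjl, hjm, hjn⟩, ⟨hkl, hkm, hkn⟩, ⟨hlm, hln⟩, hmn, -⟩ :=
    hnd
  exact ⟨⟨hij, hik, hil, him, hin⟩, ⟨hjk, hjl, hjm, hjn⟩, ⟨hkl, hkm, hkn⟩, ⟨hlm, hln⟩, hmn⟩

/-- a mod 2 cycle vanishing on all triples meeting `{i, j}` is constant on the others -/
theorem flat {D : Fin 6 → Fin 6 → Fin 6 → ZMod 2} {i j k l m n : Fin 6}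
    (hnd : [i, j, k, l, m, n].Nodup) (h12 : ∀ p q r, D p q r = D q p r)
    (h23 : ∀ p q r, D p q r = D p r q) (hd : ∀ p q, D p q q = 0)
    (hcyc : ∀ b c, b ≠ c → ∑ a, D a b c = 0) (hi : ∀ q r, D i q r = 0) (hj : ∀ q r, D j q r = 0) :
    D k l m = D l m n ∧ D k l n = D l m n ∧ D k m n = D l m n := by
  have hs : ∀ p q, D p p q = 0 := fun p q => by rw [h23, h12, hd]
  have hs' : ∀ p q, D p q p = 0 := fun p q => by rw [h23, hs]
  have hnd' := hnd
  obtain ⟨⟨hij, hik, hil, him, hin⟩, ⟨hjk, hjl, hjm, hjn⟩, ⟨hkl, hkm, hkn⟩, ⟨hlm, hln⟩, hmn⟩ :=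
    nodup6 hnd
  have e1 := hcyc l m hlm
  rw [sum6 hnd', hi, hj, hs, hs', zero_add, zero_add, add_zero, add_zero] at e1
  have e2 := hcyc l n hln
  rw [sum6 hnd', hi, hj, hs, hs', zero_add, zero_add, add_zero, add_zero] at e2
  have e3 := hcyc m n hmn
  rw [sum6 hnd', hi, hj, hs, hs', zero_add, zero_add, add_zero, add_zero] at e3
  rw [CharTwo.add_eq_zero] at e1 e2 e3
  refine ⟨?_, ?_, e3⟩
  · rw [e1, h12, h23 l n m]
  · rw [e2, h12]

/-- the difference of the states at two points of a connected subset of `F_i ∩ F_j` -/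
theorem flat_zz (h : LamI K B lam) {i j k l m n : Fin 6} (hnd : [i, j, k, l, m, n].Nodup)
    {C : Set ℂ} (hC : IsPreconnected C)
    (hCB : C ⊆ B) (hCi : ∀ z ∈ C, i ∈ K z) (hCj : ∀ z ∈ C, j ∈ K z) {x y : ℂ} (hx : x ∈ C)
    (hy : y ∈ C) (hTx : (K x).ncard = 3) (hTy : (K y).ncard = 3) :
    (zz K lam x k l m + zz K lam y k l m = zz K lam x l m n + zz K lam y l m n) ∧
    (zz K lam x k l n + zz K lam y k l n = zz K lam x l m n + zz K lam y l m n) ∧
    (zz K lam x k m n + zz K lam y k m n = zz K lam x l m n + zz K lam y l m n) := by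
  have hxB := hCB hx
  have hyB := hCB hy
  refine flat (D := fun p q r => zz K lam x p q r + zz K lam y p q r) hnd (fun p q r => ?_)
    (fun p q r => ?_) (fun p q => ?_) (fun b c hbc => ?_) (fun q r => ?_) (fun q r => ?_)
  · show _ + _ = _ + _
    rw [zz_swap12 h hxB, zz_swap12 h hyB]
  · show _ + _ = _ + _
    rw [zz_swap23 h hxB, zz_swap23 h hyB]
  · show _ + _ = _
    rw [zz_diag h, zz_diag h, add_zero]
  · rw [Finset.sum_add_distrib, zz_cycle h hxB hTx hbc, zz_cycle h hyB hTy hbc, add_zero]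
  · show _ + _ = _
    rw [zz_eq_of_mem h hC hCB hCi hx hy, CharTwo.add_self_eq_zero]
  · show _ + _ = _
    rw [zz_eq_of_mem h hC hCB hCj hx hy, CharTwo.add_self_eq_zero]

/-- **Rule, same palette**: the states agree -/
theorem rule_same (h : LamI K B lam) {i j k l m n : Fin 6} (hnd : [i, j, k, l, m, n].Nodup)
    {C : Set ℂ} (hC : IsPreconnected C)
    (hCB : C ⊆ B) (hCi : ∀ z ∈ C, i ∈ K z) (hCj : ∀ z ∈ C, j ∈ K z) {x y : ℂ} (hx : x ∈ C)
    (hy : y ∈ C) (hKx : K x = {i, j, k}) (hKy : K y = {i, j, k}) :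
    zz K lam x l m n = zz K lam y l m n ∧ zz K lam x k l m = zz K lam y k l m ∧
    zz K lam x k l n = zz K lam y k l n ∧ zz K lam x k m n = zz K lam y k m n := by
  obtain ⟨⟨hij, hik, hil, him, hin⟩, ⟨hjk, hjl, hjm, hjn⟩, ⟨hkl, hkm, hkn⟩, ⟨hlm, hln⟩, hmn⟩ :=
    nodup6 hnd
  have hTx : (K x).ncard = 3 := by rw [hKx]; exact ncard_triple hij hik hjk
  have hTy : (K y).ncard = 3 := by rw [hKy]; exact ncard_triple hij hik hjk
  have hl : l ∉ ({i, j, k} : Set (Fin 6)) := by simp [hil.symm, hjl.symm, hkl.symm]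
  have hm : m ∉ ({i, j, k} : Set (Fin 6)) := by simp [him.symm, hjm.symm, hkm.symm]
  have hn : n ∉ ({i, j, k} : Set (Fin 6)) := by simp [hin.symm, hjn.symm, hkn.symm]
  obtain ⟨e1, e2, e3⟩ := flat_zz h hnd hC hCB hCi hCj hx hy hTx hTy
  have hx1 : zz K lam x l m n = 1 :=
    zz_compl (by rw [hKx]; exact hl) (by rw [hKx]; exact hm) (by rw [hKx]; exact hn) hlm hln hmn
  have hy1 : zz K lam y l m n = 1 :=
    zz_compl (by rw [hKy]; exact hl) (by rw [hKy]; exact hm) (by rw [hKy]; exact hn) hlm hln hmn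
  have h0 : zz K lam x l m n + zz K lam y l m n = 0 := by
    rw [hx1, hy1]; decide
  rw [h0, CharTwo.add_eq_zero] at e1 e2 e3
  exact ⟨by rw [hx1, hy1], e1, e2, e3⟩

/-- **Rule, different palettes**: the states differ exactly by the triples avoiding `i`, `j` -/
theorem rule_diff (h : LamI K B lam) {D : Set ℂ} (g : GeoI K B D) {i j k l m n : Fin 6}
    (hnd : [i, j, k, l, m, n].Nodup) {C : Set ℂ} (hC : IsPreconnected C)
    (hCB : C ⊆ B) (hCi : ∀ z ∈ C, i ∈ K z) (hCj : ∀ z ∈ C, j ∈ K z) {x y : ℂ} (hx : x ∈ C)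
    (hy : y ∈ C) (hxy : dist x y < 1) (hKx : K x = {i, j, k}) (hKy : K y = {i, j, l}) :
    zz K lam x l m n = zz K lam y l m n + 1 ∧ zz K lam x k l m = zz K lam y k l m + 1 ∧
    zz K lam x k l n = zz K lam y k l n + 1 ∧ zz K lam x k m n = zz K lam y k m n + 1 := by
  obtain ⟨⟨hij, hik, hil, him, hin⟩, ⟨hjk, hjl, hjm, hjn⟩, ⟨hkl, hkm, hkn⟩, ⟨hlm, hln⟩, hmn⟩ :=
    nodup6 hnd
  have hxB := hCB hx
  have hyB := hCB hy
  have hyD : y ∈ D := g.sub y hyB (mem_closedBall_self zero_le_one)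
  have hTx : (K x).ncard = 3 := by rw [hKx]; exact ncard_triple hij hik hjk
  have hTy : (K y).ncard = 3 := by rw [hKy]; exact ncard_triple hij hil hjl
  obtain ⟨e1, e2, e3⟩ := flat_zz h hnd hC hCB hCi hCj hx hy hTx hTy
  -- the complement of the palette of `y`
  have hy1 : zz K lam y k m n = 1 := by
    refine zz_compl ?_ ?_ ?_ hkm hkn hmn
    · rw [hKy]; simp [hik.symm, hjk.symm, hkl]
    · rw [hKy]; simp [him.symm, hjm.symm, hlm.symm]
    · rw [hKy]; simp [hin.symm, hjn.symm, hln.symm]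
  have hx0 : zz K lam x k m n = 0 := by
    by_contra hne
    refine zz_near h g hxB hyD hxy hkm hkn hmn (Or.inl (by rw [hKx]; simp)) hne ?_
    rw [hKy]
    ext a
    have hall : a = i ∨ a = j ∨ a = k ∨ a = l ∨ a = m ∨ a = n := by
      have h1 : (Finset.univ : Finset (Fin 6)) = [i, j, k, l, m, n].toFinset :=
        (Finset.eq_univ_of_card _ (by rw [List.toFinset_card_of_nodup hnd]; rfl)).symm
      have h2 := Finset.mem_univ a
      rw [h1] at h2
      simpa using h2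
    simp only [Set.mem_insert_iff, Set.mem_singleton_iff, Set.mem_compl_iff, not_or]
    constructor
    · rintro (rfl | rfl | rfl)
      · exact ⟨hik, him, hin⟩
      · exact ⟨hjk, hjm, hjn⟩
      · exact ⟨hkl.symm, hlm, hln⟩
    · rintro ⟨h1, h2, h3⟩
      rcases hall with h4 | h4 | h4 | h4 | h4 | h4
      · exact Or.inl h4
      · exact Or.inr (Or.inl h4)
      · exact absurd h4 h1
      · exact Or.inr (Or.inr h4)
      · exact absurd h4 h2
      · exact absurd h4 h3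
  rw [hx0, hy1, zero_add] at e3
  rw [← e3] at e1 e2
  have key : ∀ a b : ZMod 2, a + b = 1 → a = b + 1 := by decide
  exact ⟨key _ _ e3.symm, key _ _ e1, key _ _ e2, by rw [hx0, hy1]; decide⟩

end Vale.Agent.P032.S5
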