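import Vale.Agent.P032.S5.Lam
import Vale.Agent.P032.S5.State

/-!
# P032: the state satisfies the interface `LamI`
-/

open Set Filter Topology Metric

noncomputable section

namespace Vale.Agent.P032.S5

open Classical in
/-- the state as a function of three colours -/
def lam3 (K : ℂ → Set (Fin 6)) (a : Fin 6) (x : ℂ) (b c : Fin 6) : ZMod 2 :=
  if a ≠ b ∧ a ≠ c ∧ b ≠ c then lamS K a x {a, b, c} else 0

variable {K : ℂ → Set (Fin 6)}

theorem lam3_eq {a b c : Fin 6} (h : a ≠ b ∧ a ≠ c ∧ b ≠ c) (x : ℂ) :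
    lam3 K a x b c = lamS K a x {a, b, c} := if_pos h

theorem lam3_ne {a b c : Fin 6} (h : ¬ (a ≠ b ∧ a ≠ c ∧ b ≠ c)) (x : ℂ) :
    lam3 K a x b c = 0 := if_neg h

theorem exists_fourth {a b c d e : Fin 6} (h : [a, b, c, d, e].Nodup) :
    ∃ f, [a, b, c, d, e, f].Nodup := by
  have h1 : ({a, b, c, d, e} : Finset (Fin 6)).card = 5 := by
    have := List.toFinset_card_of_nodup h
    simpa using this
  obtain ⟨f, hf⟩ : ∃ f, f ∉ ({a, b, c, d, e} : Finset (Fin 6)) := by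
    by_contra hcon
    push Not at hcon
    have h2 : ({a, b, c, d, e} : Finset (Fin 6)) = Finset.univ := Finset.eq_univ_of_forall hcon
    rw [h2] at h1
    simp at h1
  refine ⟨f, ?_⟩
  simp only [Finset.mem_insert, Finset.mem_singleton, not_or] at hf
  simp only [List.nodup_cons, List.mem_cons, List.not_mem_nil, or_false, not_or,
    List.nodup_nil, and_true, not_false_eq_true] at h ⊢
  tauto

/-- **The interface.** -/
theorem lamI_of {B : Set ℂ} (husc : ∀ y, ∀ᶠ z in 𝓝 y, K z ⊆ K y) (hne : ∀ y, ∃ i, i ∈ K y)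
    (hthree : ∀ x ∈ B, ∀ u ∈ closedBall x 1, (K u).ncard ≤ 3)
    (hav : ∀ x a, a ∈ K x → ∀ y, dist y x = 1 → ∃ b ∈ K y, b ≠ a)
    (hag : ∀ x ∈ B, ∀ y, dist y x = 1 → ∃ c ∈ K y, c ∉ K x)
    (hcomp : ∀ x ∈ B, ∀ a b c d e f : Fin 6, [a, b, c, d, e, f].Nodup → K x = {a, b, c} →
      ∀ u ∈ closedBall x 1, ¬ (d ∈ K u ∧ e ∈ K u ∧ f ∈ K u))
    (hW : ∀ x ∈ B, ∀ a b c d e f : Fin 6, [a, b, c, d, e, f].Nodup → K x = {a, b, c} →
      ∀ᶠ j : ℕ in atTop, ∀ h : ℕ → Fin 6, h (6 * 2 ^ j) = h 0 →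
      (∀ k ≤ 6 * 2 ^ j, h k ∈ K (pt x j (2 ^ j) k) ∧ h k ∉ K x) →
        ∑ k ∈ Finset.range (6 * 2 ^ j), eps (h k) (h (k + 1)) {d, e} = 1) :
    LamI K B (lam3 K) := by
  have hN : ∀ x ∈ B, Nice K x := fun x hx => ⟨husc, hne, hthree x hx⟩
  refine ⟨?_, ?_, ?_, ?_, ?_, ?_, ?_, ?_⟩
  · intro a x b c
    by_cases h : a ≠ b ∧ a ≠ c ∧ b ≠ c
    · rw [lam3_eq h, lam3_eq ⟨h.2.1, h.1, h.2.2.symm⟩, Finset.pair_comm b c]
    · rw [lam3_ne h, lam3_ne fun h' => h ⟨h'.2.1, h'.1, h'.2.2.symm⟩]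
  · intro a x b
    exact lam3_ne (fun h => h.2.2 rfl) x
  · intro a x b
    exact lam3_ne (fun h => h.1 rfl) x
  · intro a x hx ha
    have h1 := lamS_loc (hN x hx) (hav x a ha)
    filter_upwards [mem_nhdsWithin_of_mem_nhds h1, self_mem_nhdsWithin] with x' hx' hax'
    have h2 := hx' (hav x' a hax')
    funext b c
    by_cases h : a ≠ b ∧ a ≠ c ∧ b ≠ c
    · rw [lam3_eq h, lam3_eq h]
      exact h2 _ (by simp)
    · rw [lam3_ne h, lam3_ne h]
  · intro a x hx ha b hb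
    have h1 := lamS_euler (hN x hx) (hav x a ha) hb.symm
    rw [← h1, ← Finset.sum_subset (Finset.subset_univ (Finset.univ \ {a, b}))]
    · refine Finset.sum_congr rfl fun c hc => ?_
      simp only [Finset.mem_sdiff, Finset.mem_univ, Finset.mem_insert, Finset.mem_singleton,
        true_and, not_or] at hc
      rw [lam3_eq ⟨hb.symm, fun h => hc.1 h.symm, fun h => hc.2 h.symm⟩]
      congr 1
      ext t
      simp only [Finset.mem_insert, Finset.mem_singleton]
      tauto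
    · intro c _ hc
      refine lam3_ne (fun h => hc ?_) x
      simp only [Finset.mem_sdiff, Finset.mem_univ, Finset.mem_insert, Finset.mem_singleton,
        true_and, not_or]
      exact ⟨fun h' => h.2.1 h'.symm, fun h' => h.2.2 h'.symm⟩
  · intro x hx a ha b hb c
    by_cases h : a ≠ b ∧ a ≠ c ∧ b ≠ c
    · rw [lam3_eq h, lam3_eq ⟨h.1.symm, h.2.2, h.2.1⟩]
      have e : ({b, a, c} : Finset (Fin 6)) = {a, b, c} := by
        ext t
        simp only [Finset.mem_insert, Finset.mem_singleton]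
        tauto
      rw [e]
      refine lamS_agree (hN x hx) (fun y hy => ?_) (by simp) (by simp)
      obtain ⟨t, ht1, ht2⟩ := hag x hx y hy
      exact ⟨t, ht1, fun h => ht2 (h ▸ ha), fun h => ht2 (h ▸ hb)⟩
    · rw [lam3_ne h, lam3_ne fun h' => h ⟨h'.1.symm, h'.2.2, h'.2.1⟩]
  · intro x hx a ha b c hab hac hbc hs
    rw [lam3_eq ⟨hab, hac, hbc⟩]
    refine lamS_supp (hN x hx) (hav x a ha) (by simp) (fun u hu hsu => ?_)
    obtain ⟨t, ht, hKt, hw⟩ := hs u hu (hsu a (by simp)) (hsu b (by simp)) (hsu c (by simp))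
    refine ⟨t, ?_, ?_, hw⟩
    · simp only [Finset.mem_insert, Finset.mem_singleton]
      exact ht
    · rw [Set.not_subset] at hKt
      obtain ⟨z, hz, hzt⟩ := hKt
      simp only [Set.mem_insert_iff, Set.mem_singleton_iff, not_or] at hzt
      exact ⟨z, hz, hzt.1, hzt.2⟩
  · intro x hx a b c hab hac hbc hKx d e hde hd he
    rw [hKx] at hd he
    simp only [Set.mem_insert_iff, Set.mem_singleton_iff, not_or] at hd he
    obtain ⟨f, hf⟩ : ∃ f, [a, b, c, d, e, f].Nodup := by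
      apply exists_fourth
      simp only [List.nodup_cons, List.mem_cons, List.not_mem_nil, or_false, not_or,
        List.nodup_nil, and_true, not_false_eq_true]
      tauto
    have h1 := lamS_wind (hN x hx) (hag x hx) hKx hf (hcomp x hx a b c d e f hf hKx)
      (hW x hx a b c d e f hf hKx)
    rw [lam3_eq ⟨fun h => hd.1 h.symm, fun h => he.1 h.symm, hde⟩,
      lam3_eq ⟨fun h => hd.2.1 h.symm, fun h => he.2.1 h.symm, hde⟩,
      lam3_eq ⟨fun h => hd.2.2 h.symm, fun h => he.2.2 h.symm, hde⟩]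
    exact h1

end Vale.Agent.P032.S5
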