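import Vale.Agent.P032.S5.Mesh

/-!
# P032, final argument: the state at one colour

`K : ℂ → Set (Fin 6)` an upper semicontinuous palette with at most three colours on the closed unit
disc about `x`, such that every point of the unit circle about `x` has a colour different from `a`.
`lamS K a x s` : the number mod 2 of the triangles of type `s ∋ a` in a fine triangulation of the
disc, labelled by the palettes, with labels different from `a` on the circle.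
-/

open Set Filter Topology Metric Complex

noncomputable section

namespace Vale.Agent.P032.S5

/-! ### The points of the polar mesh -/

/-- the points of the polar mesh of level `j` -/
def pt (x : ℂ) (j i k : ℕ) : ℂ :=
  x + (((i : ℝ) / 2 ^ j : ℝ) : ℂ) * cexp (((Real.pi / 3 * (k : ℝ) / 2 ^ j : ℝ) : ℂ) * I)

theorem pt_per (x : ℂ) (j i : ℕ) : pt x j i (6 * 2 ^ j) = pt x j i 0 := by
  unfold pt
  congr 2
  have h : (Real.pi / 3 * ((6 * 2 ^ j : ℕ) : ℝ) / 2 ^ j : ℝ) = 2 * Real.pi := by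
    push_cast
    field_simp
    ring
  rw [h]
  push_cast
  rw [Complex.exp_two_pi_mul_I]
  simp

theorem pt_zero (x : ℂ) (j k : ℕ) : pt x j 0 k = x := by
  unfold pt
  simp

theorem norm_ee (t : ℝ) : ‖cexp ((t : ℂ) * I)‖ = 1 := Complex.norm_exp_ofReal_mul_I t

theorem dist_pt (x : ℂ) (j i k : ℕ) : dist (pt x j i k) x = (i : ℝ) / 2 ^ j := by
  unfold pt
  rw [dist_eq_norm, add_sub_cancel_left, norm_mul, norm_ee, mul_one, Complex.norm_real,
    Real.norm_of_nonneg (by positivity)]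

theorem pt_mem {x : ℂ} {j i : ℕ} (hi : i ≤ 2 ^ j) (k : ℕ) : pt x j i k ∈ closedBall x 1 := by
  rw [mem_closedBall, dist_pt, div_le_one (by positivity)]
  exact_mod_cast hi

theorem pt_ring (x : ℂ) (j k : ℕ) : dist (pt x j (2 ^ j) k) x = 1 := by
  rw [dist_pt]
  push_cast
  exact div_self (by positivity)

theorem dist_pt_succ (x : ℂ) (j i k : ℕ) : dist (pt x j (i + 1) k) (pt x j i k) = 1 / 2 ^ j := by
  unfold pt
  rw [dist_eq_norm]
  have h : x + ((((i + 1 : ℕ) : ℝ) / 2 ^ j : ℝ) : ℂ) * cexp (((Real.pi / 3 * (k : ℝ) / 2 ^ j : ℝ) : ℂ) * I) -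
      (x + (((i : ℝ) / 2 ^ j : ℝ) : ℂ) * cexp (((Real.pi / 3 * (k : ℝ) / 2 ^ j : ℝ) : ℂ) * I)) =
      ((1 / 2 ^ j : ℝ) : ℂ) * cexp (((Real.pi / 3 * (k : ℝ) / 2 ^ j : ℝ) : ℂ) * I) := by
    push_cast
    ring
  rw [h, norm_mul, norm_ee, mul_one, Complex.norm_real, Real.norm_of_nonneg (by positivity)]

theorem dist_pt_dir (x : ℂ) {j i : ℕ} (hi : i ≤ 2 ^ j) (k : ℕ) :
    dist (pt x j i (k + 1)) (pt x j i k) ≤ 2 / 2 ^ j := by
  unfold pt
  rw [dist_eq_norm]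
  have h : x + (((i : ℝ) / 2 ^ j : ℝ) : ℂ) * cexp (((Real.pi / 3 * ((k + 1 : ℕ) : ℝ) / 2 ^ j : ℝ) : ℂ) * I) -
      (x + (((i : ℝ) / 2 ^ j : ℝ) : ℂ) * cexp (((Real.pi / 3 * (k : ℝ) / 2 ^ j : ℝ) : ℂ) * I)) =
      (((i : ℝ) / 2 ^ j : ℝ) : ℂ) * (cexp (((Real.pi / 3 * (k : ℝ) / 2 ^ j : ℝ) : ℂ) * I) *
        (cexp (I * ((Real.pi / 3 / 2 ^ j : ℝ) : ℂ)) - 1)) := by
    rw [mul_sub, ← Complex.exp_add]
    have e : ((Real.pi / 3 * ((k + 1 : ℕ) : ℝ) / 2 ^ j : ℝ) : ℂ) * I =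
        ((Real.pi / 3 * (k : ℝ) / 2 ^ j : ℝ) : ℂ) * I + I * ((Real.pi / 3 / 2 ^ j : ℝ) : ℂ) := by
      push_cast
      ring
    rw [e]
    ring
  rw [h, norm_mul, norm_mul, norm_ee, one_mul, Complex.norm_real,
    Real.norm_of_nonneg (by positivity)]
  have h1 : ((i : ℝ) / 2 ^ j) ≤ 1 := by
    rw [div_le_one (by positivity)]
    exact_mod_cast hi
  have h2 : ‖cexp (I * ((Real.pi / 3 / 2 ^ j : ℝ) : ℂ)) - 1‖ ≤ ‖(Real.pi / 3 / 2 ^ j : ℝ)‖ :=
    Real.norm_exp_I_mul_ofReal_sub_one_le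
  rw [Real.norm_of_nonneg (by positivity)] at h2
  have h3 : Real.pi / 3 / 2 ^ j ≤ 2 / 2 ^ j := by
    apply div_le_div_of_nonneg_right _ (by positivity)
    linarith [Real.pi_le_four]
  calc (i : ℝ) / 2 ^ j * ‖cexp (I * ((Real.pi / 3 / 2 ^ j : ℝ) : ℂ)) - 1‖ ≤ 1 * (2 / 2 ^ j) :=
        mul_le_mul h1 (h2.trans h3) (norm_nonneg _) zero_le_one
    _ = 2 / 2 ^ j := one_mul _

theorem dist_cell (x : ℂ) {j i k i' k' : ℕ} (hi : i' ≤ 2 ^ j) (h1 : i' = i ∨ i' = i + 1)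
    (h2 : k' = k ∨ k' = k + 1) : dist (pt x j i' k') (pt x j i k) ≤ 3 / 2 ^ j := by
  have hp : (0 : ℝ) < 2 ^ j := by positivity
  have e1 : dist (pt x j i' k') (pt x j i' k) ≤ 2 / 2 ^ j := by
    rcases h2 with rfl | rfl
    · rw [dist_self]; positivity
    · exact dist_pt_dir x hi k
  have e2 : dist (pt x j i' k) (pt x j i k) ≤ 1 / 2 ^ j := by
    rcases h1 with rfl | rfl
    · rw [dist_self]; positivity
    · exact (dist_pt_succ x j i k).le
  have e3 := dist_triangle (pt x j i' k') (pt x j i' k) (pt x j i k)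
  have e4 : (2 : ℝ) / 2 ^ j + 1 / 2 ^ j = 3 / 2 ^ j := by rw [← add_div]; norm_num
  linarith

theorem pt_double (x : ℂ) (j i k : ℕ) : pt x (j + 1) (2 * i) (2 * k) = pt x j i k := by
  unfold pt
  have e1 : (((2 * i : ℕ) : ℝ) / 2 ^ (j + 1) : ℝ) = (i : ℝ) / 2 ^ j := by
    push_cast
    rw [pow_succ]
    field_simp
  have e2 : (Real.pi / 3 * ((2 * k : ℕ) : ℝ) / 2 ^ (j + 1) : ℝ) = Real.pi / 3 * (k : ℝ) / 2 ^ j := by
    push_cast
    rw [pow_succ]
    field_simp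
  rw [e1, e2]

theorem dist_round (x : ℂ) {j i k : ℕ} (hi : i ≤ 2 ^ (j + 1)) :
    dist (pt x (j + 1) i k) (pt x j (i / 2) (k / 2)) ≤ 3 / 2 ^ (j + 1) := by
  have h1 : i = 2 * (i / 2) ∨ i = 2 * (i / 2) + 1 := by clear hi; omega
  have h2 : k = 2 * (k / 2) ∨ k = 2 * (k / 2) + 1 := by clear hi; omega
  have h3 : dist (pt x (j + 1) i k) (pt x (j + 1) (2 * (i / 2)) (2 * (k / 2))) ≤ 3 / 2 ^ (j + 1) :=
    dist_cell x hi h1 h2
  rwa [pt_double] at h3

theorem pt_shift (x x' : ℂ) (j i k : ℕ) : dist (pt x' j i k) (pt x j i k) = dist x' x := by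
  unfold pt
  rw [dist_eq_norm, dist_eq_norm, add_sub_add_right_eq_sub]

/-! ### Labellings -/

/-- a labelling of the polar mesh of level `j` about `x`, with tolerance `δ` -/
structure Lb (K : ℂ → Set (Fin 6)) (x : ℂ) (δ : ℝ) (j : ℕ) (l : ℕ → ℕ → Fin 6) : Prop where
  per : ∀ i ≤ 2 ^ j, l i (6 * 2 ^ j) = l i 0
  cen : ∀ k ≤ 6 * 2 ^ j, l 0 k = l 0 0
  fine : ∀ i ≤ 2 ^ j, ∀ k ≤ 6 * 2 ^ j, ∃ w, dist w (pt x j i k) < δ ∧ l i k ∈ K w

variable {K : ℂ → Set (Fin 6)}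

theorem Lb.mono {x : ℂ} {δ δ' : ℝ} {j : ℕ} {l : ℕ → ℕ → Fin 6} (h : Lb K x δ j l) (hδ : δ ≤ δ') :
    Lb K x δ' j l :=
  ⟨h.per, h.cen, fun i hi k hk => (h.fine i hi k hk).imp fun _ hw => ⟨hw.1.trans_le hδ, hw.2⟩⟩

theorem Lb.shift {x x' : ℂ} {δ δ' : ℝ} {j : ℕ} {l : ℕ → ℕ → Fin 6} (h : Lb K x' δ j l)
    (hδ : δ + dist x' x ≤ δ') : Lb K x δ' j l := by
  refine ⟨h.per, h.cen, fun i hi k hk => ?_⟩
  obtain ⟨w, hw, hl⟩ := h.fine i hi k hk
  refine ⟨w, ?_, hl⟩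
  have h1 := dist_triangle w (pt x' j i k) (pt x j i k)
  rw [pt_shift] at h1
  linarith

theorem Lb.round {x : ℂ} {δ δ' : ℝ} {j : ℕ} {l : ℕ → ℕ → Fin 6} (h : Lb K x δ j l)
    (hδ : δ + 3 / 2 ^ (j + 1) ≤ δ') : Lb K x δ' (j + 1) fun i k => l (i / 2) (k / 2) := by
  have e1 : 6 * 2 ^ (j + 1) / 2 = 6 * 2 ^ j := by rw [pow_succ]; omega
  refine ⟨fun i hi => ?_, fun k hk => ?_, fun i hi k hk => ?_⟩
  · show l _ _ = l _ _
    rw [e1]
    exact h.per _ (by rw [pow_succ] at hi; omega)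
  · show l _ _ = l _ _
    rw [Nat.zero_div]
    exact h.cen _ (by rw [pow_succ] at hk; omega)
  · obtain ⟨w, hw, hl⟩ := h.fine (i / 2) (by rw [pow_succ] at hi; omega) (k / 2)
      (by rw [pow_succ] at hk; omega)
    refine ⟨w, ?_, hl⟩
    have h1 := dist_triangle w (pt x j (i / 2) (k / 2)) (pt x (j + 1) i k)
    have h2 := dist_round x (k := k) hi
    rw [dist_comm] at h2
    linarith

/-- **Uniqueness** on one level. -/
theorem Lb.uniq {x : ℂ} {δ₀ : ℝ}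
    (hL : ∀ p ∈ closedBall x 1, ∃ M : Finset (Fin 6), M.card ≤ 3 ∧
      ∀ w, dist w p < δ₀ → ∀ c ∈ K w, c ∈ M) {j : ℕ} (hj : 3 / 2 ^ j ≤ δ₀ / 4)
    {l l' : ℕ → ℕ → Fin 6} (h : Lb K x (δ₀ / 2) j l) (h' : Lb K x (δ₀ / 2) j l') {a : Fin 6}
    (ha : ∀ k ≤ 6 * 2 ^ j, l (2 ^ j) k ≠ a) (ha' : ∀ k ≤ 6 * 2 ^ j, l' (2 ^ j) k ≠ a)
    {s : Finset (Fin 6)} (has : a ∈ s) :
    Ch l' (2 ^ j) (6 * 2 ^ j) s = Ch l (2 ^ j) (6 * 2 ^ j) s := by
  have hδ : 0 < δ₀ := by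
    have : (0 : ℝ) < 3 / 2 ^ j := by positivity
    linarith
  refine Ch_eq l l' _ _ h.per h'.per h.cen h'.cen (fun i hi k hk => ?_) (fun k hk => ?_)
  · obtain ⟨M, hM, hMw⟩ := hL (pt x j i k) (pt_mem hi.le k)
    refine ⟨M, Or.inl hM, fun i' k' h1 h2 => ?_⟩
    have hi' : i' ≤ 2 ^ j := by omega
    have hk' : k' ≤ 6 * 2 ^ j := by omega
    have hd := dist_cell x hi' h1 h2
    obtain ⟨w, hw, hl⟩ := h.fine i' hi' k' hk'
    obtain ⟨w', hw', hl'⟩ := h'.fine i' hi' k' hk'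
    have t1 := dist_triangle w (pt x j i' k') (pt x j i k)
    have t2 := dist_triangle w' (pt x j i' k') (pt x j i k)
    exact ⟨hMw w (by linarith) _ hl, hMw w' (by linarith) _ hl'⟩
  · refine ⟨Finset.univ.erase a, fun hs => ?_, ?_, ?_, ?_, ?_⟩
    · have := hs has
      simp at this
    · simpa using ha k hk.le
    · simpa using ha (k + 1) hk
    · simpa using ha' k hk.le
    · simpa using ha' (k + 1) hk

/-! ### The Lebesgue number -/

theorem exists_leb (hK : ∀ x, ∀ᶠ z in 𝓝 x, K z ⊆ K x) {x : ℂ}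
    (h3 : ∀ u ∈ closedBall x 1, (K u).ncard ≤ 3) :
    ∃ δ₀ > 0, ∀ p ∈ closedBall x 1, ∃ M : Finset (Fin 6), M.card ≤ 3 ∧
      ∀ w, dist w p < δ₀ → ∀ c ∈ K w, c ∈ M := by
  classical
  choose r hr hrK using fun q => Metric.eventually_nhds_iff.1 (hK q)
  obtain ⟨δ, hδ, hleb⟩ := lebesgue_number_lemma_of_metric (s := closedBall x 1)
    (c := fun q : closedBall x (1 : ℝ) => ball (q : ℂ) (r q)) (isCompact_closedBall x 1)
    (fun q => isOpen_ball) (fun p hp => mem_iUnion.2 ⟨⟨p, hp⟩, mem_ball_self (hr p)⟩)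
  refine ⟨δ, hδ, fun p hp => ?_⟩
  obtain ⟨q, hq⟩ := hleb p hp
  refine ⟨(K q).toFinset, ?_, fun w hw c hc => ?_⟩
  · rw [← Set.ncard_eq_toFinset_card']
    exact h3 q q.2
  · rw [Set.mem_toFinset]
    exact hrK q (mem_ball.1 (hq hw)) hc

/-- the labelling given by two selections -/
def sl (x : ℂ) (c b : ℂ → Fin 6) (j i k : ℕ) : Fin 6 :=
  if i = 2 ^ j then b (pt x j i k) else c (pt x j i k)

theorem sl_Lb {x : ℂ} {c b : ℂ → Fin 6} (hc : ∀ p ∈ closedBall x 1, c p ∈ K p)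
    (hb : ∀ p, dist p x = 1 → b p ∈ K p) {δ : ℝ} (hδ : 0 < δ) (j : ℕ) : Lb K x δ j (sl x c b j) := by
  refine ⟨fun i _ => ?_, fun k _ => ?_, fun i hi k _ => ⟨pt x j i k, by rwa [dist_self], ?_⟩⟩
  · unfold sl
    rw [pt_per]
  · have h0 : (0 : ℕ) ≠ 2 ^ j := by positivity
    unfold sl
    rw [if_neg h0, if_neg h0, pt_zero, pt_zero]
  · unfold sl
    split_ifs with h
    · subst h
      exact hb _ (pt_ring x j k)
    · exact hc _ (pt_mem hi k)

theorem sl_ring (x : ℂ) (c b : ℂ → Fin 6) (j k : ℕ) :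
    sl x c b j (2 ^ j) k = b (pt x j (2 ^ j) k) := if_pos rfl

/-- a palette which is upper semicontinuous, non-empty, with at most three colours on the unit disc
about `x` -/
structure Nice (K : ℂ → Set (Fin 6)) (x : ℂ) : Prop where
  usc : ∀ y, ∀ᶠ z in 𝓝 y, K z ⊆ K y
  ne : ∀ y, ∃ i, i ∈ K y
  three : ∀ u ∈ closedBall x 1, (K u).ncard ≤ 3

/-- the points of the circle about `x` have a colour different from `a` -/
def Av (K : ℂ → Set (Fin 6)) (x : ℂ) (a : Fin 6) : Prop := ∀ y, dist y x = 1 → ∃ b ∈ K y, b ≠ a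

theorem tendsto_mesh : Tendsto (fun j : ℕ => (3 : ℝ) / 2 ^ j) atTop (𝓝 0) := by
  have h := (tendsto_pow_atTop_nhds_zero_of_lt_one (r := (1 / 2 : ℝ)) (by norm_num)
    (by norm_num)).const_mul 3
  rw [mul_zero] at h
  refine h.congr fun j => ?_
  rw [one_div, inv_pow, div_eq_mul_inv]

theorem exists_level {ε : ℝ} (hε : 0 < ε) : ∃ J : ℕ, (3 : ℝ) / 2 ^ J < ε :=
  ((tendsto_order.1 tendsto_mesh).2 ε hε).exists

theorem level_mono {i j : ℕ} (h : i ≤ j) : (3 : ℝ) / 2 ^ j ≤ 3 / 2 ^ i :=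
  div_le_div_of_nonneg_left (by norm_num) (by positivity) (pow_le_pow_right₀ (by norm_num) h)

theorem level_lt {i j : ℕ} (h : (3 : ℝ) / 2 ^ j < 3 / 2 ^ i) : i < j := by
  by_contra hc
  push Not at hc
  exact absurd (level_mono hc) (not_le.2 h)

/-- **All fine labellings have the same chain.** -/
theorem exists_val {x : ℂ} (hK : Nice K x) {a : Fin 6} (ha : Av K x a) {s : Finset (Fin 6)}
    (has : a ∈ s) : ∃ v : ZMod 2, ∃ δ > 0, ∀ j : ℕ, 3 / 2 ^ j < δ → ∀ l, Lb K x δ j l →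
      (∀ k ≤ 6 * 2 ^ j, l (2 ^ j) k ≠ a) → Ch l (2 ^ j) (6 * 2 ^ j) s = v := by
  classical
  obtain ⟨δ₀, hδ₀, hL⟩ := exists_leb hK.usc hK.three
  choose c hc using hK.ne
  obtain ⟨b, hb⟩ : ∃ b : ℂ → Fin 6, ∀ p, dist p x = 1 → b p ∈ K p ∧ b p ≠ a := by
    refine ⟨fun p => if h : dist p x = 1 then (ha p h).choose else 0, fun p h => ?_⟩
    simp only [dif_pos h]
    exact (ha p h).choose_spec
  have hLb : ∀ (δ : ℝ), 0 < δ → ∀ j, Lb K x δ j (sl x c b j) := fun δ hδ j =>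
    sl_Lb (fun p _ => hc p) (fun p hp => (hb p hp).1) hδ j
  have hring : ∀ j k, sl x c b j (2 ^ j) k ≠ a := fun j k => by
    rw [sl_ring]
    exact (hb _ (pt_ring x j k)).2
  obtain ⟨J, hJ⟩ := exists_level (ε := δ₀ / 4) (by linarith)
  have hst : ∀ n : ℕ, Ch (sl x c b (J + n)) (2 ^ (J + n)) (6 * 2 ^ (J + n)) s =
      Ch (sl x c b J) (2 ^ J) (6 * 2 ^ J) s := by
    intro n
    induction n with
    | zero => rfl
    | succ n ih =>
      rw [← ih]
      have h1 : (3 : ℝ) / 2 ^ (J + n + 1) ≤ δ₀ / 4 := (level_mono (by omega)).trans hJ.le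
      have hr := (hLb (δ₀ / 4) (by linarith) (J + n)).round (δ' := δ₀ / 2) (by linarith)
      have hu := Lb.uniq hL h1 hr (hLb (δ₀ / 2) (by linarith) (J + n + 1)) (a := a)
        (fun k _ => by
          show sl x c b (J + n) (2 ^ (J + n + 1) / 2) (k / 2) ≠ a
          have : 2 ^ (J + n + 1) / 2 = 2 ^ (J + n) := by rw [pow_succ]; omega
          rw [this]
          exact hring _ _)
        (fun k _ => hring _ _) has
      rw [← Ch_round (sl x c b (J + n)) (2 ^ (J + n)) (6 * 2 ^ (J + n)) s]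
      have e1 : 2 * 2 ^ (J + n) = 2 ^ (J + n + 1) := by rw [pow_succ]; ring
      have e2 : 2 * (6 * 2 ^ (J + n)) = 6 * 2 ^ (J + n + 1) := by rw [pow_succ]; ring
      rw [e1, e2]
      exact hu
  refine ⟨Ch (sl x c b J) (2 ^ J) (6 * 2 ^ J) s, min (δ₀ / 4) (3 / 2 ^ J),
    lt_min (by linarith) (by positivity), fun j hj l hl hla => ?_⟩
  have hJj : J < j := level_lt (hj.trans_le (min_le_right _ _))
  obtain ⟨n, rfl⟩ := Nat.exists_eq_add_of_lt hJj
  rw [← hst (n + 1)]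
  refine (Lb.uniq hL ?_ (hLb (δ₀ / 2) (by linarith) _)
    (hl.mono ((min_le_left _ _).trans (by linarith))) (a := a) (fun k _ => hring _ _) hla has)
  exact (hj.trans_le (min_le_left _ _)).le

open Classical in
/-- **The state at the colour `a`** -/
def lamS (K : ℂ → Set (Fin 6)) (a : Fin 6) (x : ℂ) (s : Finset (Fin 6)) : ZMod 2 :=
  if h : ∃ v : ZMod 2, ∃ δ > 0, ∀ j : ℕ, 3 / 2 ^ j < δ → ∀ l, Lb K x δ j l →
      (∀ k ≤ 6 * 2 ^ j, l (2 ^ j) k ≠ a) → Ch l (2 ^ j) (6 * 2 ^ j) s = v then h.choose else 0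

theorem lamS_spec {x : ℂ} (hK : Nice K x) {a : Fin 6} (ha : Av K x a) {s : Finset (Fin 6)}
    (has : a ∈ s) : ∃ δ > 0, ∀ j : ℕ, 3 / 2 ^ j < δ → ∀ l, Lb K x δ j l →
      (∀ k ≤ 6 * 2 ^ j, l (2 ^ j) k ≠ a) → Ch l (2 ^ j) (6 * 2 ^ j) s = lamS K a x s := by
  have h := exists_val hK ha has
  have e : lamS K a x s = h.choose := dif_pos h
  rw [e]
  exact h.choose_spec

theorem lamS_all {x : ℂ} (hK : Nice K x) {a : Fin 6} (ha : Av K x a) :
    ∀ᶠ δ in 𝓝[>] (0 : ℝ), ∀ s : Finset (Fin 6), a ∈ s → ∀ j : ℕ, 3 / 2 ^ j < δ →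
      ∀ l, Lb K x δ j l → (∀ k ≤ 6 * 2 ^ j, l (2 ^ j) k ≠ a) →
        Ch l (2 ^ j) (6 * 2 ^ j) s = lamS K a x s := by
  rw [eventually_all]
  intro s
  rw [eventually_imp_distrib_left]
  intro has
  obtain ⟨δ, hδ, h⟩ := lamS_spec hK ha has
  filter_upwards [Ioo_mem_nhdsGT hδ] with δ' hδ' j hj l hl hla
  exact h j (hj.trans hδ'.2) l (hl.mono hδ'.2.le) hla

/-- labels on the circle avoiding a set of colours -/
theorem exists_sel {x : ℂ} (hK : ∀ y, ∃ i, i ∈ K y) {A : Set (Fin 6)}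
    (hA : ∀ y, dist y x = 1 → ∃ b ∈ K y, b ∉ A) :
    ∃ c b : ℂ → Fin 6, (∀ p, c p ∈ K p) ∧ ∀ p, dist p x = 1 → b p ∈ K p ∧ b p ∉ A := by
  classical
  choose c hc using hK
  refine ⟨c, fun p => if h : dist p x = 1 then (hA p h).choose else 0, hc, fun p h => ?_⟩
  simp only [dif_pos h]
  exact (hA p h).choose_spec

/-- **Support.** If no point of the disc has all colours of `s` then the chain of a fine exact
labelling vanishes at `s`. -/
theorem exists_supp {K' : ℂ → Set (Fin 6)} {x : ℂ}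
    (husc : ∀ p ∈ closedBall x 1, ∀ᶠ w in 𝓝[closedBall x 1] p, K' w ⊆ K' p)
    {s : Finset (Fin 6)} (hs : ∀ u ∈ closedBall x 1, ∃ t ∈ s, t ∉ K' u) :
    ∃ δ > (0 : ℝ), ∀ j : ℕ, (3 : ℝ) / 2 ^ j < δ → ∀ l : ℕ → ℕ → Fin 6,
      (∀ i ≤ 2 ^ j, ∀ k ≤ 6 * 2 ^ j, l i k ∈ K' (pt x j i k)) →
        Ch l (2 ^ j) (6 * 2 ^ j) s = 0 := by
  classical
  have h1 : ∀ p : closedBall x (1 : ℝ), ∃ r > 0, ∀ w ∈ closedBall x (1 : ℝ), dist w p < r →
      K' w ⊆ K' p := by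
    intro p
    obtain ⟨r, hr, h⟩ := Metric.eventually_nhds_iff.1 (eventually_nhdsWithin_iff.1 (husc p p.2))
    exact ⟨r, hr, fun w hw hd => h hd hw⟩
  choose r hr hrK using h1
  obtain ⟨δ, hδ, hleb⟩ := lebesgue_number_lemma_of_metric (s := closedBall x 1)
    (c := fun q : closedBall x (1 : ℝ) => ball (q : ℂ) (r q)) (isCompact_closedBall x 1)
    (fun q => isOpen_ball) (fun p hp => mem_iUnion.2 ⟨⟨p, hp⟩, mem_ball_self (hr ⟨p, hp⟩)⟩)
  refine ⟨δ, hδ, fun j hj l hl => ?_⟩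
  unfold Ch
  refine Finset.sum_eq_zero fun i hi => Finset.sum_eq_zero fun k hk => ?_
  have hi' := Finset.mem_range.1 hi
  have hk' := Finset.mem_range.1 hk
  obtain ⟨q, hq⟩ := hleb (pt x j i k) (pt_mem hi'.le k)
  obtain ⟨t, hts, htq⟩ := hs q q.2
  have key : ∀ i' k', (i' = i ∨ i' = i + 1) → (k' = k ∨ k' = k + 1) → l i' k' ≠ t := by
    intro i' k' h1 h2 ht
    have hi2 : i' ≤ 2 ^ j := by omega
    have hk2 : k' ≤ 6 * 2 ^ j := by omega
    have h3 := hl i' hi2 k' hk2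
    have h4 : dist (pt x j i' k') q < r q :=
      mem_ball.1 (hq (mem_ball.2 ((dist_cell x hi2 h1 h2).trans_lt hj)))
    exact htq (hrK q _ (pt_mem hi2 k') h4 (ht ▸ h3))
  have h00 := key i k (Or.inl rfl) (Or.inl rfl)
  have h10 := key (i + 1) k (Or.inr rfl) (Or.inl rfl)
  have h01 := key i (k + 1) (Or.inl rfl) (Or.inr rfl)
  have h11 := key (i + 1) (k + 1) (Or.inr rfl) (Or.inr rfl)
  have z : ∀ p q r : Fin 6, p ≠ t → q ≠ t → r ≠ t → tau p q r s = 0 := by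
    intro p q r hp hq hr
    by_contra hne
    obtain ⟨-, -, -, rfl⟩ := tau_ne_zero hne
    simp only [Finset.mem_insert, Finset.mem_singleton] at hts
    rcases hts with h | h | h
    · exact hp h.symm
    · exact hq h.symm
    · exact hr h.symm
  rw [z _ _ _ h00 h10 h11, z _ _ _ h00 h01 h11, add_zero]

/-! ### The properties of the state -/

theorem Nice.near {x : ℂ} (hK : Nice K x) : ∀ᶠ x' in 𝓝 x, Nice K x' := by
  obtain ⟨δ₀, hδ₀, hL⟩ := exists_leb hK.usc hK.three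
  filter_upwards [ball_mem_nhds x hδ₀] with x' hx'
  refine ⟨hK.usc, hK.ne, fun u hu => ?_⟩
  have h1 : u + (x - x') ∈ closedBall x 1 := by
    rw [mem_closedBall, dist_eq_norm] at hu ⊢
    rwa [show u + (x - x') - x = u - x' by ring]
  obtain ⟨M, hM, hMw⟩ := hL _ h1
  have h2 : K u ⊆ (M : Set (Fin 6)) := fun c hc => hMw u (by
    rw [dist_eq_norm, show u - (u + (x - x')) = x' - x by ring, ← dist_eq_norm]
    exact mem_ball.1 hx') c hc
  calc (K u).ncard ≤ (M : Set (Fin 6)).ncard := Set.ncard_le_ncard h2 M.finite_toSet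
    _ = M.card := Set.ncard_coe_finset M
    _ ≤ 3 := hM

/-- **The state is locally constant.** -/
theorem lamS_loc {x : ℂ} (hK : Nice K x) {a : Fin 6} (ha : Av K x a) :
    ∀ᶠ x' in 𝓝 x, Av K x' a → ∀ s : Finset (Fin 6), a ∈ s → lamS K a x' s = lamS K a x s := by
  obtain ⟨δ, hδ, hδ0⟩ := ((lamS_all hK ha).and self_mem_nhdsWithin).exists
  have hδ0 : 0 < δ := hδ0
  filter_upwards [hK.near, ball_mem_nhds x (half_pos hδ0)] with x' hK' hx' ha' s has
  obtain ⟨ε, ⟨hε, hε0⟩, hεδ⟩ := (((lamS_all hK' ha').and self_mem_nhdsWithin).and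
    (Ioo_mem_nhdsGT (half_pos hδ0))).exists
  have hε0 : 0 < ε := hε0
  obtain ⟨j, hj⟩ := exists_level hε0
  obtain ⟨c, b, hc, hb⟩ := exists_sel hK.ne (x := x') (A := {a}) (fun y hy => by
    simpa using ha' y hy)
  have hl : Lb K x' ε j (sl x' c b j) := sl_Lb (fun p _ => hc p) (fun p hp => (hb p hp).1) hε0 j
  have hring : ∀ k ≤ 6 * 2 ^ j, sl x' c b j (2 ^ j) k ≠ a := fun k _ => by
    rw [sl_ring]
    exact (hb _ (pt_ring x' j k)).2
  have e1 := hε s has j hj _ hl hring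
  have e2 := hδ s has j (hj.trans (hεδ.2.trans (half_lt_self hδ0))) _
    (hl.shift (δ' := δ) (by have := mem_ball.1 hx'; have := hεδ.2; linarith)) hring
  rw [← e1, ← e2]

/-- **Euler** -/
theorem lamS_euler {x : ℂ} (hK : Nice K x) {a : Fin 6} (ha : Av K x a) {b : Fin 6} (hab : a ≠ b) :
    ∑ c ∈ Finset.univ \ {a, b}, lamS K a x (insert c {a, b}) = 0 := by
  obtain ⟨δ, hδ, hδ0⟩ := ((lamS_all hK ha).and self_mem_nhdsWithin).exists
  have hδ0 : 0 < δ := hδ0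
  obtain ⟨j, hj⟩ := exists_level hδ0
  obtain ⟨c, b', hc, hb⟩ := exists_sel hK.ne (x := x) (A := {a}) (fun y hy => by
    simpa using ha y hy)
  have hl : Lb K x δ j (sl x c b' j) := sl_Lb (fun p _ => hc p) (fun p hp => (hb p hp).1) hδ0 j
  have hring : ∀ k ≤ 6 * 2 ^ j, sl x c b' j (2 ^ j) k ≠ a := fun k _ => by
    rw [sl_ring]
    exact (hb _ (pt_ring x j k)).2
  have e1 := bd_Ch (sl x c b' j) (2 ^ j) (6 * 2 ^ j) hl.per hl.cen (Finset.card_pair hab)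
  have e2 : ∑ k ∈ Finset.range (6 * 2 ^ j), eps (sl x c b' j (2 ^ j) k)
      (sl x c b' j (2 ^ j) (k + 1)) {a, b} = 0 := by
    refine Finset.sum_eq_zero fun k hk => ?_
    have hk' := Finset.mem_range.1 hk
    exact eps_zero (x := a) (by simp) (hring k hk'.le).symm (hring (k + 1) hk').symm
  rw [e2] at e1
  rw [← e1]
  unfold bd
  refine Finset.sum_congr rfl fun d _ => ?_
  exact (hδ _ (by simp) j hj _ hl hring).symm

/-- **Agreement** of the states at two colours -/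
theorem lamS_agree {x : ℂ} (hK : Nice K x) {a b : Fin 6}
    (hab : ∀ y, dist y x = 1 → ∃ c ∈ K y, c ≠ a ∧ c ≠ b) {s : Finset (Fin 6)} (has : a ∈ s)
    (hbs : b ∈ s) : lamS K a x s = lamS K b x s := by
  have ha : Av K x a := fun y hy => (hab y hy).imp fun _ h => ⟨h.1, h.2.1⟩
  have hb : Av K x b := fun y hy => (hab y hy).imp fun _ h => ⟨h.1, h.2.2⟩
  obtain ⟨δ, ⟨hδa, hδb⟩, hδ0⟩ :=
    (((lamS_all hK ha).and (lamS_all hK hb)).and self_mem_nhdsWithin).exists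
  have hδ0 : 0 < δ := hδ0
  obtain ⟨j, hj⟩ := exists_level hδ0
  obtain ⟨c, b', hc, hb'⟩ := exists_sel hK.ne (x := x) (A := {a, b}) (fun y hy => by
    simpa using hab y hy)
  have hl : Lb K x δ j (sl x c b' j) := sl_Lb (fun p _ => hc p) (fun p hp => (hb' p hp).1) hδ0 j
  have hring : ∀ k, sl x c b' j (2 ^ j) k ≠ a ∧ sl x c b' j (2 ^ j) k ≠ b := fun k => by
    rw [sl_ring]
    simpa using (hb' _ (pt_ring x j k)).2
  rw [← hδa s has j hj _ hl fun k _ => (hring k).1, ← hδb s hbs j hj _ hl fun k _ => (hring k).2]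

/-- **Support**, with borderline points. -/
theorem lamS_supp {x : ℂ} (hK : Nice K x) {a : Fin 6} (ha : Av K x a) {s : Finset (Fin 6)}
    (has : a ∈ s) (hs : ∀ u ∈ closedBall x 1, (∀ t ∈ s, t ∈ K u) → ∃ t ∈ s,
      (∃ b ∈ K u, b ≠ a ∧ b ≠ t) ∧ ∀ᶠ w in 𝓝[closedBall x 1 \ {u}] u, t ∉ K w) :
    lamS K a x s = 0 := by
  classical
  obtain ⟨δ, hδ, hδ0⟩ := ((lamS_all hK ha).and self_mem_nhdsWithin).exists
  have hδ0 : 0 < δ := hδ0
  -- the new palette
  choose! t hts htb htw using hs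
  obtain ⟨K', hK'⟩ : ∃ K' : ℂ → Set (Fin 6), K' = fun u =>
    if u ∈ closedBall x 1 ∧ ∀ t ∈ s, t ∈ K u then K u \ {t u} else K u := ⟨_, rfl⟩
  have hsub : ∀ u, K' u ⊆ K u := by
    intro u
    rw [hK']
    simp only []
    split_ifs
    · exact sdiff_subset
    · exact Subset.rfl
  have husc : ∀ p ∈ closedBall x 1, ∀ᶠ w in 𝓝[closedBall x 1] p, K' w ⊆ K' p := by
    intro p hp
    by_cases hb : ∀ t ∈ s, t ∈ K p
    · have h1 := eventually_nhdsWithin_iff.1 (htw p hp hb)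
      filter_upwards [self_mem_nhdsWithin, mem_nhdsWithin_of_mem_nhds (hK.usc p),
        mem_nhdsWithin_of_mem_nhds h1] with w hw hwp hwt
      by_cases hwe : w = p
      · rw [hwe]
      · have h2 := hwt ⟨hw, hwe⟩
        intro c hc
        have h3 : K' p = K p \ {t p} := by rw [hK']; exact if_pos ⟨hp, hb⟩
        rw [h3]
        exact ⟨hwp (hsub w hc), fun h => h2 (by rw [← (show c = t p from h)]; exact hsub w hc)⟩
    · filter_upwards [mem_nhdsWithin_of_mem_nhds (hK.usc p)] with w hw c hc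
      have h3 : K' p = K p := by rw [hK']; exact if_neg fun h => hb h.2
      rw [h3]
      exact hw (hsub w hc)
  obtain ⟨ε, hε, hsupp⟩ := exists_supp husc (s := s) (fun u hu => by
    by_cases hb : ∀ t ∈ s, t ∈ K u
    · refine ⟨t u, hts u hu hb, ?_⟩
      have h3 : K' u = K u \ {t u} := by rw [hK']; exact if_pos ⟨hu, hb⟩
      rw [h3]
      exact fun h => h.2 rfl
    · push Not at hb
      obtain ⟨t', ht', htu⟩ := hb
      exact ⟨t', ht', fun h => htu (hsub u h)⟩)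
  -- the labels
  have hne : ∀ u ∈ closedBall x 1, ∃ b, b ∈ K' u ∧ (dist u x = 1 → b ≠ a) := by
    intro u hu
    by_cases hb : ∀ t ∈ s, t ∈ K u
    · obtain ⟨b, hbK, hba, hbt⟩ := htb u hu hb
      refine ⟨b, ?_, fun _ => hba⟩
      have h3 : K' u = K u \ {t u} := by rw [hK']; exact if_pos ⟨hu, hb⟩
      rw [h3]
      exact ⟨hbK, hbt⟩
    · have h3 : K' u = K u := by rw [hK']; exact if_neg fun h => hb h.2
      rw [h3]
      by_cases hd : dist u x = 1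
      · obtain ⟨b, hb1, hb2⟩ := ha u hd
        exact ⟨b, hb1, fun _ => hb2⟩
      · obtain ⟨b, hb1⟩ := hK.ne u
        exact ⟨b, hb1, fun h => absurd h hd⟩
  choose! f hf hfa using hne
  have hsph : ∀ p, dist p x = 1 → p ∈ closedBall x (1 : ℝ) := fun p hp => mem_closedBall.2 hp.le
  obtain ⟨j, hj⟩ := exists_level (lt_min hδ0 hε)
  have hl : Lb K x δ j (sl x f f j) := sl_Lb (fun p hp => hsub p (hf p hp))
    (fun p hp => hsub p (hf p (hsph p hp))) hδ0 j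
  rw [← hδ s has j (hj.trans_le (min_le_left _ _)) _ hl (fun k _ => by
    rw [sl_ring]
    exact hfa _ (hsph _ (pt_ring x j k)) (pt_ring x j k))]
  refine hsupp j (hj.trans_le (min_le_right _ _)) _ fun i hi k _ => ?_
  unfold sl
  rw [ite_self]
  exact hf _ (pt_mem hi k)

theorem setlem (a b c d e f : Fin 6) (h : [a, b, c, d, e, f].Nodup) :
    Finset.univ \ ({d, e} : Finset (Fin 6)) = {a, b, c, f} := by
  have h1 : ({a, b, c, d, e, f} : Finset (Fin 6)) = Finset.univ := by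
    apply Finset.eq_univ_of_card
    have := List.toFinset_card_of_nodup h
    simpa using this
  ext x
  have hx : x ∈ ({a, b, c, d, e, f} : Finset (Fin 6)) := by rw [h1]; simp
  simp only [List.nodup_cons, List.mem_cons, List.not_mem_nil, or_false, not_or] at h
  simp only [Finset.mem_insert, Finset.mem_singleton, Finset.mem_sdiff, Finset.mem_univ,
    true_and] at hx ⊢
  rcases hx with rfl | rfl | rfl | rfl | rfl | rfl <;> tauto

/-- **Boundary.** For a three-coloured point the sum of the states is the number of `d|e` steps of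
a labelling of the circle by other colours. -/
theorem lamS_wind {x : ℂ} (hK : Nice K x) (hx : ∀ y, dist y x = 1 → ∃ c ∈ K y, c ∉ K x)
    {a b c d e f : Fin 6} (hKx : K x = {a, b, c}) (hnd : [a, b, c, d, e, f].Nodup)
    (hno : ∀ u ∈ closedBall x 1, ¬ (d ∈ K u ∧ e ∈ K u ∧ f ∈ K u)) {v : ZMod 2}
    (hW : ∀ᶠ j : ℕ in atTop, ∀ h : ℕ → Fin 6, h (6 * 2 ^ j) = h 0 →
      (∀ k ≤ 6 * 2 ^ j, h k ∈ K (pt x j (2 ^ j) k) ∧ h k ∉ K x) →
        ∑ k ∈ Finset.range (6 * 2 ^ j), eps (h k) (h (k + 1)) {d, e} = v) :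
    lamS K a x {a, d, e} + lamS K b x {b, d, e} + lamS K c x {c, d, e} = v := by
  classical
  have hav : ∀ t ∈ K x, Av K x t := fun t ht y hy => (hx y hy).imp fun z hz =>
    ⟨hz.1, fun h => hz.2 (h ▸ ht)⟩
  have hA := hav a (by rw [hKx]; simp)
  have hB := hav b (by rw [hKx]; simp)
  have hC := hav c (by rw [hKx]; simp)
  obtain ⟨δ, ⟨⟨⟨hδa, hδb⟩, hδc⟩, hδ0⟩⟩ := ((((lamS_all hK hA).and (lamS_all hK hB)).and
    (lamS_all hK hC)).and self_mem_nhdsWithin).exists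
  have hδ0 : 0 < δ := hδ0
  obtain ⟨ε, hε, hsupp⟩ := exists_supp (K' := K) (x := x) (s := {d, e, f})
    (fun p _ => mem_nhdsWithin_of_mem_nhds (hK.usc p)) (fun u hu => by
      by_contra hcon
      push Not at hcon
      exact hno u hu ⟨hcon d (by simp), hcon e (by simp), hcon f (by simp)⟩)
  obtain ⟨j, hj, hjW⟩ := (((tendsto_order.1 tendsto_mesh).2 _ (lt_min hδ0 hε)).and hW).exists
  obtain ⟨c₀, b₀, hc₀, hb₀⟩ := exists_sel hK.ne (x := x) (A := K x) hx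
  have hl : Lb K x δ j (sl x c₀ b₀ j) :=
    sl_Lb (fun p _ => hc₀ p) (fun p hp => (hb₀ p hp).1) hδ0 j
  have hring : ∀ k, sl x c₀ b₀ j (2 ^ j) k ∈ K (pt x j (2 ^ j) k) ∧
      sl x c₀ b₀ j (2 ^ j) k ∉ K x := fun k => by
    rw [sl_ring]
    exact hb₀ _ (pt_ring x j k)
  have hrt : ∀ t ∈ K x, ∀ k ≤ 6 * 2 ^ j, sl x c₀ b₀ j (2 ^ j) k ≠ t := fun t ht k _ h =>
    (hring k).2 (h ▸ ht)
  have hde : d ≠ e := by
    intro h
    subst h
    simp at hnd
  have e1 := bd_Ch (sl x c₀ b₀ j) (2 ^ j) (6 * 2 ^ j) hl.per hl.cen (Finset.card_pair hde)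
  rw [hjW (fun k => sl x c₀ b₀ j (2 ^ j) k) (hl.per _ le_rfl) (fun k _ => hring k)] at e1
  have hjd : (3 : ℝ) / 2 ^ j < δ := hj.trans_le (min_le_left _ _)
  have ea := hδa {a, d, e} (by simp) j hjd _ hl (hrt a (by rw [hKx]; simp))
  have eb := hδb {b, d, e} (by simp) j hjd _ hl (hrt b (by rw [hKx]; simp))
  have ec := hδc {c, d, e} (by simp) j hjd _ hl (hrt c (by rw [hKx]; simp))
  have ef := hsupp j (hj.trans_le (min_le_right _ _)) (sl x c₀ b₀ j) (fun i hi k _ => by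
    unfold sl
    split_ifs with h
    · subst h
      exact (hb₀ _ (pt_ring x j k)).1
    · exact hc₀ _)
  have hnd' := hnd
  simp only [List.nodup_cons, List.mem_cons, List.not_mem_nil, or_false, not_or] at hnd'
  unfold bd at e1
  rw [setlem a b c d e f hnd, Finset.sum_insert (by
      simp only [Finset.mem_insert, Finset.mem_singleton]; tauto), Finset.sum_insert (by
      simp only [Finset.mem_insert, Finset.mem_singleton]; tauto), Finset.sum_insert (by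
      simp only [Finset.mem_singleton]; tauto), Finset.sum_singleton] at e1
  have hf : (insert f {d, e} : Finset (Fin 6)) = {d, e, f} := by
    ext x
    simp only [Finset.mem_insert, Finset.mem_singleton]
    tauto
  rw [hf, ef, add_zero] at e1
  rw [← ea, ← eb, ← ec, ← e1, add_assoc]

end Vale.Agent.P032.S5
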