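import Mathlib

/-!
# P032: clopen labels in a compact space

Closed sets which are not joined by components of a compact Hausdorff space are separated by
pairwise disjoint clopen sets.
-/

open Set Topology

namespace Vale.Agent.P032.S5

variable {C : Type*} [TopologicalSpace C] [CompactSpace C] [T2Space C]

/-- a point and a closed set not meeting its component are separated by a clopen set -/
theorem exists_clopen_point {x : C} {Y : Set C} (hY : IsClosed Y)
    (h : ∀ y ∈ Y, y ∉ connectedComponent x) : ∃ N : Set C, IsClopen N ∧ x ∈ N ∧ Disjoint N Y := by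
  have h1 : ∀ y ∈ Y, ∃ N : Set C, IsClopen N ∧ x ∈ N ∧ y ∉ N := by
    intro y hy
    have h2 := h y hy
    rw [connectedComponent_eq_iInter_isClopen] at h2
    simp only [mem_iInter, not_forall] at h2
    obtain ⟨⟨N, hN, hxN⟩, hyN⟩ := h2
    exact ⟨N, hN, hxN, hyN⟩
  choose! N hN hxN hyN using h1
  obtain ⟨t, htY⟩ := hY.isCompact.elim_nhds_subcover' (fun y _ => (N y)ᶜ)
    fun y hy => (hN y hy).compl.isOpen.mem_nhds (hyN y hy)
  refine ⟨⋂ y ∈ t, N y, ?_, ?_, ?_⟩
  · exact isClopen_biInter_finset fun y _ => hN y y.2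
  · exact mem_iInter₂.2 fun y _ => hxN y y.2
  · rw [Set.disjoint_left]
    intro z hz hzY
    obtain ⟨y, hy, hzy⟩ := mem_iUnion₂.1 (htY hzY)
    exact hzy (mem_iInter₂.1 hz y hy)

/-- two closed sets which no component meets both are separated by a clopen set -/
theorem exists_clopen_closed {X Y : Set C} (hX : IsClosed X) (hY : IsClosed Y)
    (h : ∀ x ∈ X, ∀ y ∈ Y, y ∉ connectedComponent x) :
    ∃ N : Set C, IsClopen N ∧ X ⊆ N ∧ Disjoint N Y := by
  have h1 : ∀ x ∈ X, ∃ N : Set C, IsClopen N ∧ x ∈ N ∧ Disjoint N Y :=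
    fun x hx => exists_clopen_point hY (h x hx)
  choose! N hN hxN hd using h1
  obtain ⟨t, htX⟩ := hX.isCompact.elim_nhds_subcover' (fun x _ => N x)
    fun x hx => (hN x hx).isOpen.mem_nhds (hxN x hx)
  refine ⟨⋃ x ∈ t, N x, ?_, htX, ?_⟩
  · exact isClopen_biUnion_finset fun x _ => hN x x.2
  · rw [Set.disjoint_left]
    intro z hz hzY
    obtain ⟨x, hx, hzx⟩ := mem_iUnion₂.1 hz
    exact Set.disjoint_left.1 (hd x x.2) hzx hzY

/-- **Clopen labels.** `X s` closed, pairwise disjoint (`s` in a finite type); if for `s ∈ J` no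
component meets `X s` and another `X t`, then there are pairwise disjoint clopen sets `N s`,
`s ∈ J`, with `X s ⊆ N s` and `N s` disjoint from all other `X t`. -/
theorem exists_clopen_family {S : Type*} [Finite S] (X : S → Set C) (hX : ∀ s, IsClosed (X s))
    (J : Set S) (h : ∀ s ∈ J, ∀ t, t ≠ s → ∀ x ∈ X s, ∀ y ∈ X t, y ∉ connectedComponent x) :
    ∃ N : S → Set C, (∀ s, IsClopen (N s)) ∧ (∀ s ∈ J, X s ⊆ N s) ∧
      (∀ s ∈ J, ∀ t, t ≠ s → Disjoint (N s) (X t)) ∧
      (∀ s, ∀ t, s ≠ t → Disjoint (N s) (N t)) ∧ ∀ s ∉ J, N s = ∅ := by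
  classical
  have h1 : ∀ s : S, ∃ N : Set C, IsClopen N ∧ (s ∈ J → X s ⊆ N) ∧
      (∀ t, t ≠ s → Disjoint N (X t)) ∧ (s ∉ J → N = ∅) := by
    intro s
    by_cases hs : s ∈ J
    · obtain ⟨N, hN, hXN, hd⟩ := exists_clopen_closed (hX s)
        (Y := ⋃ t ∈ {t : S | t ≠ s}, X t)
        ((Set.toFinite _).isClosed_biUnion fun t _ => hX t)
        (by
          intro x hx y hy
          obtain ⟨t, ht, hyt⟩ := mem_iUnion₂.1 hy
          exact h s hs t ht x hx y hyt)
      exact ⟨N, hN, fun _ => hXN, fun t ht => hd.mono_right fun z hz => mem_iUnion₂.2 ⟨t, ht, hz⟩,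
        fun h => absurd hs h⟩
    · exact ⟨∅, isClopen_empty, fun h => absurd h hs, fun t _ => Set.empty_disjoint _, fun _ => rfl⟩
  choose N hN hXN hd hJ using h1
  obtain ⟨n, ⟨e⟩⟩ := Finite.exists_equiv_fin S
  refine ⟨fun s => N s \ ⋃ t ∈ {t : S | e t < e s}, N t, fun s => ?_, fun s hs => ?_,
    fun s hs t hts => ?_, fun s t hst => ?_, fun s hs => ?_⟩
  · exact (hN s).diff ((Set.toFinite _).isClopen_biUnion fun t _ => hN t)
  · intro x hx
    refine ⟨hXN s hs hx, fun hx2 => ?_⟩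
    obtain ⟨t, ht, hxt⟩ := mem_iUnion₂.1 hx2
    have hts : t ≠ s := by
      rintro rfl
      exact lt_irrefl _ (show e t < e t from ht)
    exact Set.disjoint_left.1 (hd t s hts.symm) hxt hx
  · exact (hd s t hts).mono_left sdiff_subset
  · rcases lt_trichotomy (e s) (e t) with hlt | heq | hlt
    · rw [Set.disjoint_left]
      rintro x ⟨hx, _⟩ ⟨_, hx2⟩
      exact hx2 (mem_iUnion₂.2 ⟨s, hlt, hx⟩)
    · exact absurd (e.injective heq) hst
    · rw [Set.disjoint_left]
      rintro x ⟨_, hx2⟩ ⟨hx, _⟩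
      exact hx2 (mem_iUnion₂.2 ⟨t, hlt, hx⟩)
  · show N s \ _ = ∅
    rw [hJ s hs, empty_sdiff]

end Vale.Agent.P032.S5
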