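import Vale.Agent.P032.H180.Ring
import Vale.Agent.P032.Six.StarX

/-!
# P032: no frozen pattern about a point outside `XX`
-/

open Set Filter Topology Metric

noncomputable section

namespace Vale.Agent.P032.S5

open Vale.Agent.P032.Six Vale.Agent.P032.H180

theorem om_eq : om = (1 / 2 : ℝ) + (Real.sqrt 3 / 2 : ℝ) * Complex.I := by
  unfold om
  rw [Complex.exp_mul_I, ← Complex.ofReal_cos, ← Complex.ofReal_sin, Real.cos_pi_div_three,
    Real.sin_pi_div_three]

theorem om_sq : om * om = om - 1 := by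
  rw [om_eq]
  have h := Real.mul_self_sqrt (show (0 : ℝ) ≤ 3 by norm_num)
  apply Complex.ext
  · simp
    nlinarith
  · simp
    ring

theorem circle_pre (x : ℂ) : IsPreconnected (sphere x (1 : ℝ)) :=
  (isPreconnected_sphere (E := ℂ) (by
    rw [← Module.finrank_eq_rank, Complex.finrank_real_complex]
    norm_num) x 1)

theorem fin3_aux : ∀ s l l' : Fin 3, (s = 1 ∨ s = 2) → l' ≠ l → l' = l + s ∨ l = l' + s := by
  decide

theorem fin3_ne : ∀ s l : Fin 3, (s = 1 ∨ s = 2) → l + s ≠ l := by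
  decide

theorem not_Frz_off {U : Fin 6 → Set ℂ} (h : Mx U) {v : ℂ} {col : Fin 3 → Fin 6}
    (hne : ∀ y, dist y v = 1 → ∃ l, col l ∈ Kst U y)
    (hsub : ∀ y, dist y v = 1 → ∀ i ∈ Kst U y, ∃ l, i = col l)
    (hnu : ∀ y, dist y v = 1 → ∃ l, col l ∉ Kst U y) : ¬ Frz v (Kst U) col := by
  rintro ⟨s, hs, hfr⟩
  -- a point with two colours
  obtain ⟨y, hy, l, l', hll, hl, hl'⟩ : ∃ y, dist y v = 1 ∧ ∃ l l' : Fin 3, l' ≠ l ∧
      col l ∈ Kst U y ∧ col l' ∈ Kst U y := by
    have hy0 : dist (v + 1) v = 1 := by rw [dist_eq_norm]; simp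
    obtain ⟨l0, hl0⟩ := hne _ hy0
    have hy1 := dist_rot' v _ hy0
    have hl1 := (hfr _ hy0 l0).1 hl0
    have hcl : ∀ i, IsClosed {x | i ∈ Kst U x} := isClosed_Fst U
    have h1 := isPreconnected_closed_iff.1 (circle_pre v) {x | col l0 ∈ Kst U x}
      (⋃ l ∈ {l : Fin 3 | l ≠ l0}, {x | col l ∈ Kst U x}) (hcl _)
      ((Set.toFinite _).isClosed_biUnion fun l _ => hcl _) (fun x hx => by
        obtain ⟨l, hl⟩ := hne x hx
        by_cases h2 : l = l0
        · exact Or.inl (h2 ▸ hl)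
        · exact Or.inr (mem_iUnion₂.2 ⟨l, h2, hl⟩)) ⟨_, hy0, hl0⟩
      ⟨_, hy1, mem_iUnion₂.2 ⟨l0 + s, fin3_ne s l0 hs, hl1⟩⟩
    obtain ⟨y, hy, hyl, hyl'⟩ := h1
    obtain ⟨l, hl, hll⟩ := mem_iUnion₂.1 hyl'
    exact ⟨y, hy, l0, l, hl, hyl, hll⟩
  obtain ⟨p, hp, hq⟩ : ∃ p : Fin 3, col p ∈ Kst U y ∧ col (p + s) ∈ Kst U y := by
    rcases fin3_aux s l l' hs hll with h1 | h1
    · exact ⟨l, hl, h1 ▸ hl'⟩
    · exact ⟨l', hl', h1 ▸ hl⟩
  have hyn : ‖y - v‖ = 1 := by rw [← dist_eq_norm]; exact hy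
  have hyn0 : y - v ≠ 0 := by intro h0; rw [h0] at hyn; simp at hyn
  -- the two neighbours
  have e1 : v + om * (v + (1 - om) * (y - v) - v) = y := by
    have := om_sq
    linear_combination (-(y - v)) * this
  have d1 : dist (v + (1 - om) * (y - v)) v = 1 := by
    rw [dist_eq_norm, add_sub_cancel_left, norm_mul, hyn, mul_one, norm_sub_rev, om_sub_one]
  have d2 : dist y (v + (1 - om) * (y - v)) = 1 := by
    have h1 := dist_rot v _ d1
    rw [e1] at h1
    rw [dist_comm]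
    exact h1
  have hpm : col p ∈ Kst U (v + (1 - om) * (y - v)) := by
    rw [hfr _ d1 p, e1]
    exact hq
  have hpp : col (p + s) ∈ Kst U (v + om * (y - v)) := (hfr y hy p).1 hp
  have hKy : Kst U y ⊆ {col p, col (p + s)} := by
    intro i hi
    obtain ⟨m, rfl⟩ := hsub y hy i hi
    by_cases h1 : m = p
    · exact Or.inl (by rw [h1])
    by_cases h2 : m = p + s
    · exact Or.inr (by rw [h2]; rfl)
    exfalso
    obtain ⟨r, hr⟩ := hnu y hy
    have h3 : r = p ∨ r = p + s ∨ r = m := by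
      have : ∀ s p m r : Fin 3, (s = 1 ∨ s = 2) → m ≠ p → m ≠ p + s → (r = p ∨ r = p + s ∨ r = m) := by
        decide
      exact this s p m r hs h1 h2
    rcases h3 with rfl | rfl | rfl
    · exact hr hp
    · exact hr hq
    · exact hr hi
  rcases h.Kst_lemmaB hKy d2 (dist_rot v y hy) (Kst_sub _ hpm) (Kst_sub _ hpp) with h1 | h1
  · have h2 : (2 * om - 1) * (y - v) = 0 := by linear_combination h1
    rcases mul_eq_zero.1 h2 with h3 | h3
    · have h4 : om = 1 / 2 := by linear_combination h3 / 2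
      have h5 := om_sq
      rw [h4] at h5
      norm_num at h5
    · exact hyn0 h3
  · apply hyn0
    linear_combination -h1

end Vale.Agent.P032.S5
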