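import Vale.Agent.P032.S5.State
import Vale.Agent.P032.S5.H11.Tab

/-!
# P032: the state as a chain in the sense of the finite table
-/

open Set Filter Topology Metric

noncomputable section

namespace Vale.Agent.P032.S5

open Tab

/-- the palette as a set -/
def KS (K : ℂ → Finset (Fin 6)) : ℂ → Set (Fin 6) := fun x => (K x : Set (Fin 6))

open Classical in
/-- the state as a chain -/
def zF (K : ℂ → Finset (Fin 6)) (lam : Fin 6 → ℂ → Fin 6 → Fin 6 → ZMod 2) (x : ℂ) : Ch :=
  fun s => if ∃ a b c, a ≠ b ∧ a ≠ c ∧ b ≠ c ∧ s = {a, b, c} ∧ zz (KS K) lam x a b c = 1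
    then 1 else 0

variable {K : ℂ → Finset (Fin 6)} {B D : Set ℂ} {lam : Fin 6 → ℂ → Fin 6 → Fin 6 → ZMod 2}

theorem perm3 {f : Fin 6 → Fin 6 → Fin 6 → ZMod 2} (h12 : ∀ p q r, f p q r = f q p r)
    (h23 : ∀ p q r, f p q r = f p r q) {a b c a' b' c' : Fin 6} (hab : a ≠ b) (hac : a ≠ c)
    (hbc : b ≠ c) (h : ({a, b, c} : Finset (Fin 6)) = {a', b', c'}) : f a b c = f a' b' c' := by
  have ha : a ∈ ({a', b', c'} : Finset (Fin 6)) := by rw [← h]; simp
  have hb : b ∈ ({a', b', c'} : Finset (Fin 6)) := by rw [← h]; simp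
  have hc : c ∈ ({a', b', c'} : Finset (Fin 6)) := by rw [← h]; simp
  simp only [Finset.mem_insert, Finset.mem_singleton] at ha hb hc
  rcases ha with rfl | rfl | rfl <;> rcases hb with rfl | rfl | rfl <;>
    rcases hc with rfl | rfl | rfl <;> first
    | exact absurd rfl hab
    | exact absurd rfl hac
    | exact absurd rfl hbc
    | rfl
    | exact h23 _ _ _
    | exact h12 _ _ _
    | exact (h12 _ _ _).trans (h23 _ _ _)
    | exact (h23 _ _ _).trans (h12 _ _ _)
    | exact ((h12 _ _ _).trans (h23 _ _ _)).trans (h12 _ _ _)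

theorem zF_triple (h : LamI (KS K) B lam) {x : ℂ} (hx : x ∈ B) {a b c : Fin 6} (hab : a ≠ b)
    (hac : a ≠ c) (hbc : b ≠ c) : zF K lam x {a, b, c} = zz (KS K) lam x a b c := by
  unfold zF
  by_cases h1 : zz (KS K) lam x a b c = 1
  · rw [if_pos ⟨a, b, c, hab, hac, hbc, rfl, h1⟩, h1]
  · rw [if_neg]
    · have key : ∀ u : ZMod 2, u ≠ 1 → 0 = u := by decide
      exact key _ h1
    · rintro ⟨a', b', c', hab', hac', hbc', he, h2⟩
      refine h1 ?_
      rw [← h2]
      exact perm3 (zz_swap12 h hx) (zz_swap23 h hx) hab hac hbc he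

theorem zF_lam (h : LamI (KS K) B lam) {x : ℂ} (hx : x ∈ B) {a b c : Fin 6} (hab : a ≠ b)
    (hac : a ≠ c) (hbc : b ≠ c) (ha : a ∈ K x) : zF K lam x {a, b, c} = lam a x b c := by
  rw [zF_triple h hx hab hac hbc]
  exact zz_of_mem (K := KS K) (Finset.mem_coe.2 ha) b c

theorem ncard_KS {x : ℂ} : (KS K x).ncard = (K x).card := Set.ncard_coe_finset _

theorem isCyc_zF (h : LamI (KS K) B lam) {x : ℂ} (hx : x ∈ B) (hT : (K x).card = 3) :
    IsCyc (zF K lam x) := by
  intro e he
  obtain ⟨b, c, hbc, rfl⟩ := Finset.card_eq_two.1 he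
  have h1 := zz_cycle h hx (by rw [ncard_KS]; exact hT) hbc
  rw [← Finset.sum_compl_add_sum ({b, c} : Finset (Fin 6)), Finset.sum_pair hbc,
    zz_self h hx, zz_swap12 h hx c b c, zz_diag h, add_zero, add_zero] at h1
  rw [← h1]
  refine Finset.sum_congr rfl fun l hl => ?_
  rw [Finset.mem_compl, Finset.mem_insert, Finset.mem_singleton, not_or] at hl
  exact zF_triple h hx hl.1 hl.2 hbc

theorem adm_zF (h : LamI (KS K) B lam) (g : GeoI (KS K) B D) {x : ℂ} (hx : x ∈ B)
    (hT : (K x).card = 3) : Adm (K x) (zF K lam x) := by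
  have hcyc := isCyc_zF h hx hT
  have hcc : ∀ s : Finset (Fin 6), s.card = 3 → sᶜ.card = 3 := fun s hs => by
    rw [Finset.card_compl, hs]; rfl
  have h1 : zF K lam x (K x)ᶜ = 1 := by
    obtain ⟨d, e, f, hde, hdf, hef, hs⟩ := Finset.card_eq_three.1 (hcc _ hT)
    have hn : ∀ a ∈ ({d, e, f} : Finset (Fin 6)), a ∉ KS K x := by
      intro a ha
      rw [← hs, Finset.mem_compl] at ha
      exact fun h2 => ha (Finset.mem_coe.1 h2)
    rw [hs, zF_triple h hx hde hdf hef]
    exact zz_compl (hn d (by simp)) (hn e (by simp)) (hn f (by simp)) hde hdf hef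
  have h2 : ∀ s : Finset (Fin 6), s.card = 3 → s ≠ K x → s ≠ (K x)ᶜ →
      zF K lam x s = 0 ∨ zF K lam x sᶜ = 0 := by
    intro s hs hs1 hs2
    by_cases h0 : zF K lam x s = 0
    · exact Or.inl h0
    right
    obtain ⟨p, q, r, hpq, hpr, hqr, hsp⟩ := Finset.card_eq_three.1 hs
    obtain ⟨p', q', r', hpq', hpr', hqr', hsp'⟩ := Finset.card_eq_three.1 (hcc s hs)
    rw [hsp'] 
    rw [hsp, zF_triple h hx hpq hpr hqr] at h0
    rw [zF_triple h hx hpq' hpr' hqr']
    refine zz_no_pair h g hx (by rw [ncard_KS]; exact hT) hpq hpr hqr hpq' hpr' hqr' ?_ ?_ ?_ h0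
    · have : ((sᶜ : Finset (Fin 6)) : Set (Fin 6)) = ((s : Finset (Fin 6)) : Set (Fin 6))ᶜ :=
        Finset.coe_compl s
      rw [hsp', hsp] at this
      simpa using this
    · intro h3
      apply hs1
      rw [hsp]
      apply Finset.coe_injective
      simpa [KS] using h3
    · intro h3
      apply hs2
      have h4 : sᶜ = K x := by
        rw [hsp']
        apply Finset.coe_injective
        simpa [KS] using h3
      rw [← h4, compl_compl]
  have h3 : zF K lam x (K x) = 0 := parity' hT hcyc h1 h2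
  refine ⟨hcyc, h1, fun s hs => ?_⟩
  by_cases hs1 : s = K x
  · left; rw [hs1, h3]
  by_cases hs2 : s = (K x)ᶜ
  · right; rw [hs2, compl_compl, h3]
  exact h2 s hs hs1 hs2

/-- the triples avoiding two colours -/
theorem triple_cases {i j k l m n : Fin 6} (hnd : [i, j, k, l, m, n].Nodup) {s : Finset (Fin 6)}
    (hs : s.card = 3) (hi : i ∉ s) (hj : j ∉ s) :
    s = {l, m, n} ∨ s = {k, l, m} ∨ s = {k, l, n} ∨ s = {k, m, n} := by
  obtain ⟨⟨hij, hik, hil, him, hin⟩, ⟨hjk, hjl, hjm, hjn⟩, ⟨hkl, hkm, hkn⟩, ⟨hlm, hln⟩, hmn⟩ :=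
    nodup6 hnd
  have hall : ∀ a ∈ s, a = k ∨ a = l ∨ a = m ∨ a = n := by
    intro a ha
    have h1 : (Finset.univ : Finset (Fin 6)) = [i, j, k, l, m, n].toFinset :=
      (Finset.eq_univ_of_card _ (by rw [List.toFinset_card_of_nodup hnd]; rfl)).symm
    have h2 := Finset.mem_univ a
    rw [h1] at h2
    simp only [List.toFinset_cons, List.toFinset_nil, insert_empty_eq, Finset.mem_insert,
      Finset.mem_singleton] at h2
    rcases h2 with rfl | rfl | h2 | h2 | h2 | h2
    · exact absurd ha hi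
    · exact absurd ha hj
    · exact Or.inl h2
    · exact Or.inr (Or.inl h2)
    · exact Or.inr (Or.inr (Or.inl h2))
    · exact Or.inr (Or.inr (Or.inr h2))
  have hc3 : ∀ {p q r : Fin 6}, p ≠ q → p ≠ r → q ≠ r → ({p, q, r} : Finset (Fin 6)).card ≤ s.card := by
    intro p q r _ _ _
    rw [hs]; exact Finset.card_le_three
  by_cases hk : k ∈ s
  · by_cases hl : l ∈ s
    · by_cases hm : m ∈ s
      · by_cases hn : n ∈ s
        · exfalso
          have h4 : ({k, l, m, n} : Finset (Fin 6)) ⊆ s := by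
            intro a ha
            simp only [Finset.mem_insert, Finset.mem_singleton] at ha
            rcases ha with rfl | rfl | rfl | rfl <;> assumption
          have h5 := Finset.card_le_card h4
          rw [Finset.card_insert_of_notMem (by simp [hkl, hkm, hkn]),
            Finset.card_insert_of_notMem (by simp [hlm, hln]), Finset.card_pair hmn, hs] at h5
          omega
        · right; left
          symm
          refine Finset.eq_of_subset_of_card_le ?_ ?_
          · intro a ha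
            simp only [Finset.mem_insert, Finset.mem_singleton] at ha
            rcases ha with rfl | rfl | rfl <;> assumption
          · rw [hs, Finset.card_insert_of_notMem (by simp [hkl, hkm]), Finset.card_pair hlm]
      · right; right; left
        refine Finset.eq_of_subset_of_card_le (fun a ha => ?_) (hc3 hkl hkn hln)
        rcases hall a ha with rfl | rfl | rfl | rfl
        · simp
        · simp
        · exact absurd ha hm
        · simp
    · right; right; right
      refine Finset.eq_of_subset_of_card_le (fun a ha => ?_) (hc3 hkm hkn hmn)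
      rcases hall a ha with rfl | rfl | rfl | rfl
      · simp
      · exact absurd ha hl
      · simp
      · simp
  · left
    refine Finset.eq_of_subset_of_card_le (fun a ha => ?_) (hc3 hlm hln hmn)
    rcases hall a ha with rfl | rfl | rfl | rfl
    · exact absurd ha hk
    · simp
    · simp
    · simp

/-- completing three different colours -/
theorem exists_rest : ∀ i j k : Fin 6, i ≠ j → i ≠ k → j ≠ k →
    ∃ l m n : Fin 6, [i, j, k, l, m, n].Nodup := by
  decide +kernel

/-- completing four different colours -/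
theorem exists_rest2 {i j k l : Fin 6} (hij : i ≠ j) (hik : i ≠ k) (hjk : j ≠ k) (hil : i ≠ l)
    (hjl : j ≠ l) (hkl : k ≠ l) : ∃ m n : Fin 6, [i, j, k, l, m, n].Nodup := by
  obtain ⟨a, b, c, hnd⟩ := exists_rest i j k hij hik hjk
  have h1 : (Finset.univ : Finset (Fin 6)) = [i, j, k, a, b, c].toFinset :=
    (Finset.eq_univ_of_card _ (by rw [List.toFinset_card_of_nodup hnd]; rfl)).symm
  have h2 := Finset.mem_univ l
  rw [h1] at h2
  simp only [List.toFinset_cons, List.toFinset_nil, insert_empty_eq, Finset.mem_insert,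
    Finset.mem_singleton] at h2
  simp only [List.nodup_cons, List.mem_cons, List.not_mem_nil, or_false, not_or,
    List.nodup_nil, and_true] at hnd ⊢
  rcases h2 with rfl | rfl | rfl | rfl | rfl | rfl
  · exact absurd rfl hil
  · exact absurd rfl hjl
  · exact absurd rfl hkl
  · exact ⟨b, c, by tauto⟩
  · exact ⟨a, c, by
      have h3 : ∀ {u w : Fin 6}, ¬ u = w → ¬ w = u := fun h h' => h h'.symm
      have := h3 hnd.2.2.2.1.1
      tauto⟩
  · exact ⟨a, b, by
      have h3 : ∀ {u w : Fin 6}, ¬ u = w → ¬ w = u := fun h h' => h h'.symm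
      have e1 := h3 hnd.2.2.2.1.2
      have e2 := h3 hnd.2.2.2.2.1
      tauto⟩

/-- **RULE** in chain form -/
theorem zF_rule (h : LamI (KS K) B lam) (g : GeoI (KS K) B D)
    (hsmall : ∀ Q : Set ℂ, IsPreconnected Q → ∀ i j, i ≠ j → (∀ u ∈ Q, i ∈ K u ∧ j ∈ K u) → Q ⊆ B →
      ∀ x ∈ Q, ∀ y ∈ Q, dist x y < 1)
    {Q : Set ℂ} (hQ : IsPreconnected Q) (hQB : Q ⊆ B) {i j : Fin 6} (hij : i ≠ j)
    (hQij : ∀ u ∈ Q, i ∈ K u ∧ j ∈ K u) {x y : ℂ} (hx : x ∈ Q) (hy : y ∈ Q)
    (hTx : (K x).card = 3) (hTy : (K y).card = 3) {s : Finset (Fin 6)} (hs : s.card = 3) :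
    (K x = K y → zF K lam x s = zF K lam y s) ∧
      (K x ≠ K y → zF K lam y s = zF K lam x s + bd {i, j}ᶜ s) := by
  have hxB := hQB hx
  have hyB := hQB hy
  have hQi : ∀ z ∈ Q, i ∈ KS K z := fun z hz => Finset.mem_coe.2 (hQij z hz).1
  have hQj : ∀ z ∈ Q, j ∈ KS K z := fun z hz => Finset.mem_coe.2 (hQij z hz).2
  -- triples meeting `{i, j}`
  have hmeet : i ∈ s ∨ j ∈ s → zF K lam x s = zF K lam y s := by
    intro hm
    have key : ∀ a ∈ s, (∀ z ∈ Q, a ∈ KS K z) → zF K lam x s = zF K lam y s := by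
      intro a ha hQa
      have h1 : (s.erase a).card = 2 := by rw [Finset.card_erase_of_mem ha, hs]
      obtain ⟨b, c, hbc, he⟩ := Finset.card_eq_two.1 h1
      have hs' : s = {a, b, c} := by rw [← Finset.insert_erase ha, he]
      have hb : b ∈ s.erase a := by rw [he]; simp
      have hc : c ∈ s.erase a := by rw [he]; simp
      have hab : a ≠ b := (Finset.ne_of_mem_erase hb).symm
      have hac : a ≠ c := (Finset.ne_of_mem_erase hc).symm
      rw [hs', zF_triple h hxB hab hac hbc, zF_triple h hyB hab hac hbc]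
      exact zz_eq_of_mem h hQ hQB hQa hx hy b c
    rcases hm with hm | hm
    · exact key i hm hQi
    · exact key j hm hQj
  -- third colours
  have hthird : ∀ z ∈ Q, (K z).card = 3 → ∃ k, i ≠ k ∧ j ≠ k ∧ K z = {i, j, k} := by
    intro z hz hz3
    have h1 : ((K z).erase i).card = 2 := by
      rw [Finset.card_erase_of_mem (hQij z hz).1, hz3]
    have hji : j ∈ (K z).erase i := Finset.mem_erase.2 ⟨hij.symm, (hQij z hz).2⟩
    have h2 : (((K z).erase i).erase j).card = 1 := by
      rw [Finset.card_erase_of_mem hji, h1]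
    obtain ⟨k, hk⟩ := Finset.card_eq_one.1 h2
    have hkm : k ∈ ((K z).erase i).erase j := by rw [hk]; simp
    refine ⟨k, ?_, (Finset.ne_of_mem_erase hkm).symm, ?_⟩
    · exact (Finset.ne_of_mem_erase (Finset.mem_of_mem_erase hkm)).symm
    · rw [← Finset.insert_erase (hQij z hz).1, ← Finset.insert_erase hji, hk]
  obtain ⟨k, hik, hjk, hKx⟩ := hthird x hx hTx
  obtain ⟨l, hil, hjl, hKy⟩ := hthird y hy hTy
  have hKx' : KS K x = {i, j, k} := by simp [KS, hKx]
  have hKy' : KS K y = {i, j, l} := by simp [KS, hKy]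
  constructor
  · intro hK
    by_cases hm : i ∈ s ∨ j ∈ s
    · exact hmeet hm
    rw [not_or] at hm
    obtain ⟨l', m, n, hnd⟩ := exists_rest i j k hij hik hjk
    obtain ⟨⟨-, -, -, -, -⟩, ⟨-, -, -, -⟩, ⟨hkl', hkm, hkn⟩, ⟨hlm, hln⟩, hmn⟩ := nodup6 hnd
    have hKy2 : KS K y = {i, j, k} := by
      rw [← hKx']; unfold KS; rw [hK]
    obtain ⟨e1, e2, e3, e4⟩ := rule_same h hnd hQ hQB hQi hQj hx hy hKx' hKy2
    rcases triple_cases hnd hs hm.1 hm.2 with rfl | rfl | rfl | rfl
    · rw [zF_triple h hxB hlm hln hmn, zF_triple h hyB hlm hln hmn, e1]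
    · rw [zF_triple h hxB hkl' hkm hlm, zF_triple h hyB hkl' hkm hlm, e2]
    · rw [zF_triple h hxB hkl' hkn hln, zF_triple h hyB hkl' hkn hln, e3]
    · rw [zF_triple h hxB hkm hkn hmn, zF_triple h hyB hkm hkn hmn, e4]
  · intro hK
    have hkl : k ≠ l := by
      rintro rfl
      exact hK (by rw [hKx, hKy])
    by_cases hm : i ∈ s ∨ j ∈ s
    · rw [hmeet hm]
      have : ¬ s ⊆ {i, j}ᶜ := by
        intro hsub
        rcases hm with hm | hm
        · have := hsub hm; simp at this
        · have := hsub hm; simp at this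
      unfold bd
      rw [if_neg this, add_zero]
    · rw [not_or] at hm
      have hsub : s ⊆ {i, j}ᶜ := by
        intro a ha
        rw [Finset.mem_compl, Finset.mem_insert, Finset.mem_singleton]
        rintro (rfl | rfl)
        · exact hm.1 ha
        · exact hm.2 ha
      have hbd : bd {i, j}ᶜ s = 1 := by unfold bd; rw [if_pos hsub]
      rw [hbd]
      obtain ⟨m, n, hnd⟩ := exists_rest2 hij hik hjk hil hjl hkl
      obtain ⟨⟨-, -, -, -, -⟩, ⟨-, -, -, -⟩, ⟨-, hkm, hkn⟩, ⟨hlm, hln⟩, hmn⟩ := nodup6 hnd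
      obtain ⟨e1, e2, e3, e4⟩ := rule_diff h g hnd hQ hQB hQi hQj hx hy
        (hsmall Q hQ i j hij hQij hQB x hx y hy) hKx' hKy'
      have key : ∀ a b : ZMod 2, a = b + 1 → b = a + 1 := by decide
      rcases triple_cases hnd hs hm.1 hm.2 with rfl | rfl | rfl | rfl
      · rw [zF_triple h hxB hlm hln hmn, zF_triple h hyB hlm hln hmn]; exact key _ _ e1
      · rw [zF_triple h hxB hkl hkm hlm, zF_triple h hyB hkl hkm hlm]; exact key _ _ e2
      · rw [zF_triple h hxB hkl hkn hln, zF_triple h hyB hkl hkn hln]; exact key _ _ e3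
      · rw [zF_triple h hxB hkm hkn hmn, zF_triple h hyB hkm hkn hmn]; exact key _ _ e4

end Vale.Agent.P032.S5
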