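import Mathlib

/-!
# P032, final argument: mod 2 chains of the simplex on the colours and labelled meshes

`tau a b c` : the labelled triangle as a mod 2 chain (a function on sets of colours).
`eps a b` : the labelled edge.
`tet w x y z` : the boundary of the labelled tetrahedron.
`prism` : two labelled triangles differ by the three sides of a prism and three tetrahedra.
`Tot` : sum over the triangles of a box of the grid `ℤ × ℤ`; `Tot_edges` : discrete Stokes.
-/

namespace Vale.Agent.P032.S5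

open Finset

/-- the labelled triangle -/
def tau {α : Type} [DecidableEq α] (a b c : α) (s : Finset α) : ZMod 2 :=
  if a ≠ b ∧ b ≠ c ∧ a ≠ c ∧ s = {a, b, c} then 1 else 0

/-- the labelled edge -/
def eps {α : Type} [DecidableEq α] (a b : α) (e : Finset α) : ZMod 2 :=
  if a ≠ b ∧ e = {a, b} then 1 else 0

/-- the boundary of the labelled tetrahedron -/
def tet {α : Type} [DecidableEq α] (w x y z : α) (s : Finset α) : ZMod 2 :=
  tau x y z s + tau w y z s + tau w x z s + tau w x y s

/-- one side of the prism -/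
def hh {α : Type} [DecidableEq α] (a b a' b' : α) (s : Finset α) : ZMod 2 :=
  tau a b b' s + tau a a' b' s

theorem z2 (x : ZMod 2) : x + x = 0 := CharTwo.add_self_eq_zero x

theorem z2' {x y : ZMod 2} (h : x + y = 0) : x = y := by
  have := CharTwo.add_eq_zero (a := x) (b := y)
  exact this.1 h

section

variable {α : Type} [DecidableEq α]

theorem tau_swap12 (a b c : α) (s : Finset α) : tau b a c s = tau a b c s := by
  unfold tau
  have h : ({b, a, c} : Finset α) = {a, b, c} := by ext x; simp; tauto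
  rw [h]
  refine if_congr ?_ rfl rfl
  constructor
  · rintro ⟨h1, h2, h3, h4⟩; exact ⟨h1.symm, h3, h2, h4⟩
  · rintro ⟨h1, h2, h3, h4⟩; exact ⟨h1.symm, h3, h2, h4⟩

theorem tau_swap23 (a b c : α) (s : Finset α) : tau a c b s = tau a b c s := by
  unfold tau
  have h : ({a, c, b} : Finset α) = {a, b, c} := by ext x; simp; tauto
  rw [h]
  refine if_congr ?_ rfl rfl
  constructor
  · rintro ⟨h1, h2, h3, h4⟩; exact ⟨h3, h2.symm, h1, h4⟩
  · rintro ⟨h1, h2, h3, h4⟩; exact ⟨h3, h2.symm, h1, h4⟩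

theorem tau_swap13 (a b c : α) (s : Finset α) : tau c b a s = tau a b c s := by
  rw [tau_swap12, tau_swap23, tau_swap12]

theorem tau_rot (a b c : α) (s : Finset α) : tau b c a s = tau a b c s :=
  (tau_swap13 a c b s).trans (tau_swap23 a b c s)

@[simp] theorem tau_same12 (a c : α) (s : Finset α) : tau a a c s = 0 := by
  unfold tau; rw [if_neg]; tauto

@[simp] theorem tau_same23 (a c : α) (s : Finset α) : tau a c c s = 0 := by
  unfold tau; rw [if_neg]; tauto

@[simp] theorem tau_same13 (a c : α) (s : Finset α) : tau a c a s = 0 := by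
  unfold tau; rw [if_neg]; tauto

@[simp] theorem eps_same (a : α) (s : Finset α) : eps a a s = 0 := by
  unfold eps; rw [if_neg]; tauto

theorem eps_symm (a b : α) (s : Finset α) : eps b a s = eps a b s := by
  unfold eps
  have h : ({b, a} : Finset α) = {a, b} := Finset.pair_comm b a
  rw [h]
  refine if_congr ?_ rfl rfl
  constructor
  · rintro ⟨h1, h2⟩; exact ⟨h1.symm, h2⟩
  · rintro ⟨h1, h2⟩; exact ⟨h1.symm, h2⟩

theorem tau_ne_zero {a b c : α} {s : Finset α} (h : tau a b c s ≠ 0) :
    a ≠ b ∧ b ≠ c ∧ a ≠ c ∧ s = {a, b, c} := by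
  by_contra hc
  exact h (if_neg hc)

theorem eps_ne_zero {a b : α} {s : Finset α} (h : eps a b s ≠ 0) : a ≠ b ∧ s = {a, b} := by
  by_contra hc
  exact h (if_neg hc)

theorem eps_zero {x y z : α} {e : Finset α} (hx : x ∈ e) (h1 : x ≠ y) (h2 : x ≠ z) :
    eps y z e = 0 := by
  by_contra h
  obtain ⟨-, rfl⟩ := eps_ne_zero h
  simp only [mem_insert, mem_singleton] at hx
  tauto

theorem tau_of_sub {a b c : α} {A s : Finset α} (ha : a ∈ A) (hb : b ∈ A) (hc : c ∈ A)
    (hs : ¬ s ⊆ A) : tau a b c s = 0 := by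
  by_contra h
  obtain ⟨-, -, -, rfl⟩ := tau_ne_zero h
  apply hs
  intro x hx
  simp only [mem_insert, mem_singleton] at hx
  rcases hx with rfl | rfl | rfl <;> assumption

theorem eps_of_sub {a b : α} {A s : Finset α} (ha : a ∈ A) (hb : b ∈ A)
    (hs : ¬ s ⊆ A) : eps a b s = 0 := by
  by_contra h
  obtain ⟨-, rfl⟩ := eps_ne_zero h
  apply hs
  intro x hx
  simp only [mem_insert, mem_singleton] at hx
  rcases hx with rfl | rfl <;> assumption

theorem hh_of_sub {a b a' b' : α} {A s : Finset α} (ha : a ∈ A) (hb : b ∈ A) (ha' : a' ∈ A)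
    (hb' : b' ∈ A) (hs : ¬ s ⊆ A) : hh a b a' b' s = 0 := by
  unfold hh
  rw [tau_of_sub ha hb hb' hs, tau_of_sub ha ha' hb' hs, add_zero]

theorem tet_of_sub {w x y z : α} {A s : Finset α} (hw : w ∈ A) (hx : x ∈ A) (hy : y ∈ A)
    (hz : z ∈ A) (hs : ¬ s ⊆ A) : tet w x y z s = 0 := by
  unfold tet
  rw [tau_of_sub hx hy hz hs, tau_of_sub hw hy hz hs, tau_of_sub hw hx hz hs,
    tau_of_sub hw hx hy hs]
  decide

/-- the tetrahedron is degenerate when there are at most three labels -/
theorem tet_of_card {w x y z : α} {M : Finset α} (hM : M.card ≤ 3) (hw : w ∈ M) (hx : x ∈ M)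
    (hy : y ∈ M) (hz : z ∈ M) (s : Finset α) : tet w x y z s = 0 := by
  have key : w = x ∨ w = y ∨ w = z ∨ x = y ∨ x = z ∨ y = z := by
    by_contra hc
    push Not at hc
    obtain ⟨h1, h2, h3, h4, h5, h6⟩ := hc
    have h : ({w, x, y, z} : Finset α).card = 4 := by
      rw [card_insert_of_notMem, card_insert_of_notMem, card_pair h6]
      · simp [h4, h5]
      · simp [h1, h2, h3]
    have h' : ({w, x, y, z} : Finset α) ⊆ M := by
      intro t ht
      simp only [mem_insert, mem_singleton] at ht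
      rcases ht with rfl | rfl | rfl | rfl <;> assumption
    have := card_le_card h'
    omega
  unfold tet
  rcases key with rfl | rfl | rfl | rfl | rfl | rfl
  · rw [tau_same12, tau_same12, add_zero, add_zero, z2]
  · rw [tau_same12, tau_same13, add_zero, add_zero, tau_swap12, z2]
  · rw [tau_same13, tau_same13, add_zero, add_zero, tau_rot, z2]
  · rw [tau_same12, tau_same23, add_zero, zero_add, z2]
  · rw [tau_same13, tau_same23, add_zero, zero_add, tau_swap23, z2]
  · rw [tau_same23, tau_same23, zero_add, zero_add, z2]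

/-- **the prism formula** -/
theorem prism (a b c a' b' c' : α) (s : Finset α) :
    tau a' b' c' s + tau a b c s = hh a b a' b' s + hh b c b' c' s + hh a c a' c' s +
      (tet a b c c' s + tet a b b' c' s + tet a a' b' c' s) := by
  unfold hh tet
  have e1 := z2 (tau a b c' s)
  have e2 := z2 (tau b c c' s)
  have e3 := z2 (tau a c c' s)
  have e4 := z2 (tau b b' c' s)
  have e5 := z2 (tau a b' c' s)
  have e6 := z2 (tau a b b' s)
  have e7 := z2 (tau a a' b' s)
  have e8 := z2 (tau a a' c' s)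
  linear_combination (-1 : ZMod 2) * e1 - e2 - e3 - e4 - e5 - e6 - e7 - e8

end

/-! ### The boundary of a two-chain -/

section

variable {α : Type} [DecidableEq α] [Fintype α]

/-- the boundary -/
def bd (z : Finset α → ZMod 2) (e : Finset α) : ZMod 2 := ∑ k ∈ univ \ e, z (insert k e)

theorem bd_add (z z' : Finset α → ZMod 2) (e : Finset α) : bd (fun s => z s + z' s) e =
    bd z e + bd z' e := sum_add_distrib

theorem bd_tau_aux {a b c : α} (hab : a ≠ b) (hbc : b ≠ c) (hac : a ≠ c) :
    bd (tau a b c) {a, b} = 1 := by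
  unfold bd
  rw [sum_eq_single c]
  · unfold tau
    rw [if_pos]
    refine ⟨hab, hbc, hac, ?_⟩
    ext x; simp; tauto
  · intro k hk hkc
    unfold tau
    rw [if_neg]
    rintro ⟨-, -, -, h⟩
    have h1 : k ∈ ({a, b, c} : Finset α) := by rw [← h]; simp
    simp only [mem_sdiff, mem_univ, mem_insert, mem_singleton, true_and, not_or] at hk h1
    rcases h1 with h1 | h1 | h1
    · exact hk.1 h1
    · exact hk.2 h1
    · exact hkc h1
  · intro h
    exfalso
    apply h
    simp only [mem_sdiff, mem_univ, mem_insert, mem_singleton, true_and, not_or]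
    exact ⟨hac.symm, hbc.symm⟩

theorem bd_tau (a b c : α) {e : Finset α} (he : e.card = 2) :
    bd (tau a b c) e = eps a b e + eps b c e + eps a c e := by
  by_cases hab : a = b
  · subst hab
    rw [eps_same, zero_add, z2]
    unfold bd
    exact sum_eq_zero fun k _ => tau_same12 _ _ _
  by_cases hbc : b = c
  · subst hbc
    rw [eps_same, add_zero, z2]
    unfold bd
    exact sum_eq_zero fun k _ => tau_same23 _ _ _
  by_cases hac : a = c
  · subst hac
    rw [eps_same, add_zero, eps_symm a b, z2]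
    unfold bd
    exact sum_eq_zero fun k _ => tau_same13 _ _ _
  by_cases h1 : e = {a, b}
  · subst h1
    rw [bd_tau_aux hab hbc hac, show eps a b {a, b} = (1 : ZMod 2) from if_pos ⟨hab, rfl⟩,
      eps_zero (x := a) (by simp) hab hac, eps_zero (x := b) (by simp) (Ne.symm hab) hbc]
    rfl
  by_cases h2 : e = {b, c}
  · subst h2
    have e0 : bd (tau a b c) {b, c} = bd (tau b c a) {b, c} := by
      unfold bd
      exact sum_congr rfl fun k _ => (tau_rot a b c _).symm
    rw [e0, bd_tau_aux hbc (Ne.symm hac) (Ne.symm hab),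
      show eps b c {b, c} = (1 : ZMod 2) from if_pos ⟨hbc, rfl⟩,
      eps_zero (x := c) (by simp) (Ne.symm hac) (Ne.symm hbc),
      eps_zero (x := b) (by simp) (Ne.symm hab) hbc]
    rfl
  by_cases h3 : e = {a, c}
  · subst h3
    have e0 : bd (tau a b c) {a, c} = bd (tau a c b) {a, c} := by
      unfold bd
      exact sum_congr rfl fun k _ => (tau_swap23 a b c _).symm
    rw [e0, bd_tau_aux hac (Ne.symm hbc) hab,
      show eps a c {a, c} = (1 : ZMod 2) from if_pos ⟨hac, rfl⟩,
      eps_zero (x := c) (by simp) (Ne.symm hac) (Ne.symm hbc),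
      eps_zero (x := a) (by simp) hab hac]
    rfl
  have e1 : eps a b e = (0 : ZMod 2) := if_neg fun h => h1 h.2
  have e2 : eps b c e = (0 : ZMod 2) := if_neg fun h => h2 h.2
  have e3 : eps a c e = (0 : ZMod 2) := if_neg fun h => h3 h.2
  rw [e1, e2, e3, add_zero, add_zero]
  unfold bd
  refine sum_eq_zero fun k hk => ?_
  by_contra hne
  obtain ⟨-, -, -, h⟩ := tau_ne_zero hne
  have hke : k ∉ e := by simpa using hk
  have he' : e = ({a, b, c} : Finset α).erase k := by rw [← h, erase_insert hke]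
  have hk' : k ∈ ({a, b, c} : Finset α) := by rw [← h]; simp
  simp only [mem_insert, mem_singleton] at hk'
  rcases hk' with rfl | rfl | rfl
  · apply h2
    rw [he']
    ext x
    simp only [mem_erase, mem_insert, mem_singleton]
    constructor
    · rintro ⟨h1, h2 | h2⟩
      · exact absurd h2 h1
      · exact h2
    · rintro (rfl | rfl)
      · exact ⟨Ne.symm hab, Or.inr (Or.inl rfl)⟩
      · exact ⟨Ne.symm hac, Or.inr (Or.inr rfl)⟩
  · apply h3
    rw [he']
    ext x
    simp only [mem_erase, mem_insert, mem_singleton]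
    constructor
    · rintro ⟨h1, h2 | h2 | h2⟩
      · exact Or.inl h2
      · exact absurd h2 h1
      · exact Or.inr h2
    · rintro (rfl | rfl)
      · exact ⟨hab, Or.inl rfl⟩
      · exact ⟨Ne.symm hbc, Or.inr (Or.inr rfl)⟩
  · apply h1
    rw [he']
    ext x
    simp only [mem_erase, mem_insert, mem_singleton]
    constructor
    · rintro ⟨h1, h2 | h2 | h2⟩
      · exact Or.inl h2
      · exact Or.inr h2
      · exact absurd h2 h1
    · rintro (rfl | rfl)
      · exact ⟨hac, Or.inl rfl⟩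
      · exact ⟨hbc, Or.inr (Or.inl rfl)⟩

end

/-! ### The polar mesh -/

section polar

variable {α : Type} [DecidableEq α]

/-- the chain of a labelling of the polar mesh with rings `0, …, m` and `n` directions -/
def Ch (l : ℕ → ℕ → α) (m n : ℕ) (s : Finset α) : ZMod 2 :=
  ∑ i ∈ range m, ∑ k ∈ range n, (tau (l i k) (l (i + 1) k) (l (i + 1) (k + 1)) s +
    tau (l i k) (l i (k + 1)) (l (i + 1) (k + 1)) s)

theorem tele2 (g : ℕ → ZMod 2) (n : ℕ) : ∑ k ∈ range n, (g k + g (k + 1)) = g 0 + g n := by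
  induction n with
  | zero => simp [z2]
  | succ n ih =>
    rw [sum_range_succ, ih]
    have e := z2 (g n)
    linear_combination e

/-- **Discrete Stokes** on the polar mesh. `G1` : radial edges, `G2` : ring edges, `G3` :
diagonals. -/
theorem stokes (G1 G2 G3 : ℕ → ℕ → ZMod 2) (m n : ℕ) (hper : ∀ i < m, G1 i n = G1 i 0) :
    ∑ i ∈ range m, ∑ k ∈ range n, ((G1 i k + G2 (i + 1) k + G3 i k) +
      (G2 i k + G1 i (k + 1) + G3 i k)) = ∑ k ∈ range n, G2 m k + ∑ k ∈ range n, G2 0 k := by
  have h1 : ∀ i ∈ range m, ∑ k ∈ range n, ((G1 i k + G2 (i + 1) k + G3 i k) +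
      (G2 i k + G1 i (k + 1) + G3 i k)) =
      (∑ k ∈ range n, G2 i k) + ∑ k ∈ range n, G2 (i + 1) k := by
    intro i hi
    have h2 : ∀ k ∈ range n, ((G1 i k + G2 (i + 1) k + G3 i k) +
        (G2 i k + G1 i (k + 1) + G3 i k)) = (G1 i k + G1 i (k + 1)) + (G2 i k + G2 (i + 1) k) := by
      intro k _
      have e := z2 (G3 i k)
      linear_combination e
    rw [sum_congr rfl h2, sum_add_distrib, tele2, hper i (mem_range.1 hi), z2, zero_add,
      sum_add_distrib]
  rw [sum_congr rfl h1, tele2 (fun i => ∑ k ∈ range n, G2 i k), add_comm]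

/-- the boundary of the chain -/
theorem bd_Ch [Fintype α] (l : ℕ → ℕ → α) (m n : ℕ) (hper : ∀ i ≤ m, l i n = l i 0)
    (hcen : ∀ k ≤ n, l 0 k = l 0 0) {e : Finset α} (he : e.card = 2) :
    bd (Ch l m n) e = ∑ k ∈ range n, eps (l m k) (l m (k + 1)) e := by
  have h0 : ∀ k ∈ range n, eps (l 0 k) (l 0 (k + 1)) e = 0 := by
    intro k hk
    rw [hcen k (mem_range.1 hk).le, hcen (k + 1) (mem_range.1 hk), eps_same]
  have h1 : bd (Ch l m n) e = ∑ i ∈ range m, ∑ k ∈ range n,
      (bd (tau (l i k) (l (i + 1) k) (l (i + 1) (k + 1))) e +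
        bd (tau (l i k) (l i (k + 1)) (l (i + 1) (k + 1))) e) := by
    unfold bd Ch
    rw [sum_comm]
    refine sum_congr rfl fun i _ => ?_
    rw [sum_comm]
    refine sum_congr rfl fun k _ => ?_
    rw [sum_add_distrib]
  rw [h1]
  have h2 := stokes (fun i k => eps (l i k) (l (i + 1) k) e) (fun i k => eps (l i k) (l i (k + 1)) e)
    (fun i k => eps (l i k) (l (i + 1) (k + 1)) e) m n (fun i hi => by
      rw [hper i hi.le, hper (i + 1) hi])
  rw [sum_eq_zero h0, add_zero] at h2
  rw [← h2]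
  refine sum_congr rfl fun i _ => sum_congr rfl fun k _ => ?_
  rw [bd_tau _ _ _ he, bd_tau _ _ _ he]

/-- **Comparison** of two labellings of the same mesh. -/
theorem Ch_eq (l l' : ℕ → ℕ → α) (m n : ℕ) (hper : ∀ i ≤ m, l i n = l i 0)
    (hper' : ∀ i ≤ m, l' i n = l' i 0) (hcen : ∀ k ≤ n, l 0 k = l 0 0)
    (hcen' : ∀ k ≤ n, l' 0 k = l' 0 0) {s : Finset α}
    (hcell : ∀ i < m, ∀ k < n, ∃ M : Finset α, (M.card ≤ 3 ∨ ¬ s ⊆ M) ∧
      ∀ i' k', (i' = i ∨ i' = i + 1) → (k' = k ∨ k' = k + 1) → l i' k' ∈ M ∧ l' i' k' ∈ M)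
    (hring : ∀ k < n, ∃ A : Finset α, ¬ s ⊆ A ∧ l m k ∈ A ∧ l m (k + 1) ∈ A ∧ l' m k ∈ A ∧
      l' m (k + 1) ∈ A) : Ch l' m n s = Ch l m n s := by
  apply z2'
  have h2 := stokes (fun i k => hh (l i k) (l (i + 1) k) (l' i k) (l' (i + 1) k) s)
    (fun i k => hh (l i k) (l i (k + 1)) (l' i k) (l' i (k + 1)) s)
    (fun i k => hh (l i k) (l (i + 1) (k + 1)) (l' i k) (l' (i + 1) (k + 1)) s) m n (fun i hi => by
      rw [hper i hi.le, hper (i + 1) hi, hper' i hi.le, hper' (i + 1) hi])
  have h0 : ∀ k ∈ range n, hh (l 0 k) (l 0 (k + 1)) (l' 0 k) (l' 0 (k + 1)) s = 0 := by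
    intro k hk
    rw [hcen k (mem_range.1 hk).le, hcen (k + 1) (mem_range.1 hk), hcen' k (mem_range.1 hk).le,
      hcen' (k + 1) (mem_range.1 hk)]
    unfold hh
    rw [tau_same12, tau_same23, add_zero]
  have h1 : ∀ k ∈ range n, hh (l m k) (l m (k + 1)) (l' m k) (l' m (k + 1)) s = 0 := by
    intro k hk
    obtain ⟨A, hA, a1, a2, a3, a4⟩ := hring k (mem_range.1 hk)
    exact hh_of_sub a1 a2 a3 a4 hA
  rw [sum_eq_zero h0, sum_eq_zero h1, add_zero] at h2
  rw [← h2]
  unfold Ch
  rw [← sum_add_distrib]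
  refine sum_congr rfl fun i hi => ?_
  rw [← sum_add_distrib]
  refine sum_congr rfl fun k hk => ?_
  obtain ⟨M, hM, hl⟩ := hcell i (mem_range.1 hi) k (mem_range.1 hk)
  have tz : ∀ w x y z : α, w ∈ M → x ∈ M → y ∈ M → z ∈ M → tet w x y z s = 0 := by
    intro w x y z hw hx hy hz
    rcases hM with hM | hM
    · exact tet_of_card hM hw hx hy hz s
    · exact tet_of_sub hw hx hy hz hM
  have p00 := hl i k (Or.inl rfl) (Or.inl rfl)
  have p10 := hl (i + 1) k (Or.inr rfl) (Or.inl rfl)
  have p01 := hl i (k + 1) (Or.inl rfl) (Or.inr rfl)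
  have p11 := hl (i + 1) (k + 1) (Or.inr rfl) (Or.inr rfl)
  have e1 := prism (l i k) (l (i + 1) k) (l (i + 1) (k + 1)) (l' i k) (l' (i + 1) k)
    (l' (i + 1) (k + 1)) s
  rw [tz _ _ _ _ p00.1 p10.1 p11.1 p11.2, tz _ _ _ _ p00.1 p10.1 p10.2 p11.2,
    tz _ _ _ _ p00.1 p00.2 p10.2 p11.2] at e1
  have e2 := prism (l i k) (l i (k + 1)) (l (i + 1) (k + 1)) (l' i k) (l' i (k + 1))
    (l' (i + 1) (k + 1)) s
  rw [tz _ _ _ _ p00.1 p01.1 p11.1 p11.2, tz _ _ _ _ p00.1 p01.1 p01.2 p11.2,
    tz _ _ _ _ p00.1 p00.2 p01.2 p11.2] at e2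
  linear_combination e1 + e2

theorem sum_range_two (f : ℕ → ZMod 2) (m : ℕ) :
    ∑ i ∈ range (2 * m), f i = ∑ i ∈ range m, (f (2 * i) + f (2 * i + 1)) := by
  induction m with
  | zero => simp
  | succ m ih => rw [show 2 * (m + 1) = 2 * m + 1 + 1 by ring, sum_range_succ, sum_range_succ, ih,
      sum_range_succ]; ring

/-- **Rounding**: the finer mesh labelled by the coarser one has the same chain. -/
theorem Ch_round (l : ℕ → ℕ → α) (m n : ℕ) (s : Finset α) :
    Ch (fun i k => l (i / 2) (k / 2)) (2 * m) (2 * n) s = Ch l m n s := by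
  unfold Ch
  rw [sum_range_two]
  refine sum_congr rfl fun i _ => ?_
  rw [sum_range_two, sum_range_two, ← sum_add_distrib]
  refine sum_congr rfl fun k _ => ?_
  have a1 : 2 * i / 2 = i := by omega
  have a2 : (2 * i + 1) / 2 = i := by omega
  have a3 : (2 * i + 1 + 1) / 2 = i + 1 := by omega
  have b1 : 2 * k / 2 = k := by omega
  have b2 : (2 * k + 1) / 2 = k := by omega
  have b3 : (2 * k + 1 + 1) / 2 = k + 1 := by omega
  simp only [a1, a2, a3, b1, b2, b3, tau_same12, tau_same23, add_zero, zero_add]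

end polar

end Vale.Agent.P032.S5
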