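import Vale.Agent.P032.S5.H11.End
import Vale.Agent.P032.S5.H483.GeoK
import Vale.Agent.P032.S5.H315.Outer
import Vale.Agent.P032.S5.H315.Ex3
import Vale.Agent.P032.S5.H783.OffX
import Vale.Agent.P032.S5.LamK

/-!
# P032: no six-coloured maximal family with at most three colours at every point of a disc
-/

open Set Filter Topology Metric

noncomputable section

namespace Vale.Agent.P032.Six

variable {k : ℕ} {U : Fin k → Set ℂ}

/-! ### relabelling -/

theorem XX_perm (σ : Equiv.Perm (Fin k)) : XX (fun i => U (σ i)) = XX U := by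
  ext x
  constructor
  · intro h i
    have := h (σ.symm i)
    simpa using this
  · intro h i
    exact h (σ i)

theorem Kst_perm (σ : Equiv.Perm (Fin k)) (x : ℂ) :
    Kst (fun i => U (σ i)) x = σ ⁻¹' Kst U x := by
  ext i
  constructor
  · rintro ⟨h1, h2⟩
    refine ⟨h1, fun j => ?_⟩
    have := h2 (σ.symm j)
    unfold ff at this ⊢
    simpa using this
  · rintro ⟨h1, h2⟩
    exact ⟨h1, fun j => h2 (σ j)⟩

theorem Mx.perm (h : Mx U) (σ : Equiv.Perm (Fin k)) : Mx (fun i => U (σ i)) := by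
  obtain ⟨h1, h2, h3, h4, C, hC⟩ := h
  refine ⟨fun i => h1 _, ?_, fun i => h3 _, fun i x hx => ?_, fun z => σ ⁻¹' C z, fun z => ?_⟩
  · refine h2.mono ?_
    intro x hx
    obtain ⟨i, hi⟩ := mem_iUnion.1 hx
    exact mem_iUnion.2 ⟨σ.symm i, by simpa using hi⟩
  · refine h4 (σ i) x fun j hj => ?_
    have h5 : σ.symm j ∈ Pal (fun i => U (σ i)) x := by
      show x ∈ closure (U (σ (σ.symm j)))
      rw [Equiv.apply_symm_apply]; exact hj
    have h6 : σ.symm j = i := hx h5
    rw [mem_singleton_iff, ← h6, Equiv.apply_symm_apply]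
  · obtain ⟨c1, c2, c3⟩ := hC z
    refine ⟨fun i hi => c1 hi, ?_, fun hz i hi => ?_⟩
    · filter_upwards [c2] with w hw
      obtain ⟨i, hi, hiw⟩ := hw
      refine ⟨σ.symm i, ?_, ?_⟩
      · show σ (σ.symm i) ∈ C z
        rw [Equiv.apply_symm_apply]; exact hi
      · show w ∈ closure (U (σ (σ.symm i)))
        rw [Equiv.apply_symm_apply]; exact hiw
    · rw [XX_perm] at hz
      exact c3 hz (σ i) hi

/-- a permutation moving `{3,4,5}` to a given three-set -/
theorem exists_perm {T : Set (Fin 6)} (hT : T.ncard = 3) :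
    ∃ σ : Equiv.Perm (Fin 6), σ ⁻¹' T = {3, 4, 5} := by
  classical
  have hTf : T = (T.toFinset : Set (Fin 6)) := by simp
  have hc : T.toFinset.card = 3 := by rw [← Set.ncard_eq_toFinset_card']; exact hT
  have e : {x // x ∈ ({3, 4, 5} : Finset (Fin 6))} ≃ {x // x ∈ T.toFinset} :=
    Finset.equivOfCardEq (by rw [hc]; rfl)
  refine ⟨e.extendSubtype, ?_⟩
  ext i
  rw [mem_preimage]
  by_cases hi : i ∈ ({3, 4, 5} : Finset (Fin 6))
  · have h1 := e.extendSubtype_mem i hi
    rw [Set.mem_toFinset] at h1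
    simp only [h1, true_iff]
    simpa using hi
  · have h1 := e.extendSubtype_not_mem i hi
    rw [Set.mem_toFinset] at h1
    simp only [h1, false_iff]
    simpa using hi

open Vale.Agent.P032.S5 Vale.Agent.P032.S5.H783 in
/-- the interface of the state for the reduced palettes -/
theorem Mx.lamI_Kst {U : Fin 6 → Set ℂ} (h : Mx U) {v : ℂ}
    (hZ : ∀ x ∈ XX U, dist x v ≤ 3 → (Pal U x).ncard ≤ 3) :
    LamI (Kst U) (closedBall v 1) (lam3 (Kst U)) := by
  classical
  have hG : GeoI (Kst U) (closedBall v 1) (closedBall v (1 + 1)) :=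
    h.geoI_ball (fun x hx hd => hZ x hx (by linarith))
  have h3 : ∀ x, dist x v ≤ 3 → (Kst U x).ncard ≤ 3 :=
    fun x hx => h.Kst_le_three fun hX => hZ x hX hx
  have hK := car_Kst h
  have hB3 : ∀ x ∈ closedBall v 1, ∀ u, dist u x ≤ 1 → dist u v ≤ 3 := by
    intro x hx u hu
    have h1 := dist_triangle u x v
    have h2 : dist x v ≤ 1 := hx
    linarith
  refine lamI_of (Kst_nhd U) h.Kst_nonempty (fun x hx u hu => h3 u (hB3 x hx u hu))
    (fun x a ha y hy => h.Kst_ne_single ha hy) (fun x hx y hy => ?_)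
    (fun x hx a b c d e f hnd hKx u hu hdef => ?_) (fun x hx a b c d e f hnd hKx => ?_)
  · have h4 := h.Kst_not_sub hy (h3 x (hB3 x hx x (by rw [dist_self]; norm_num)))
    obtain ⟨c, hc1, hc2⟩ := not_subset.1 h4
    exact ⟨c, hc1, hc2⟩
  · obtain ⟨⟨hab, hac, had, hae, haf⟩, ⟨hbc, hbd, hbe, hbf⟩, ⟨hcd, hce, hcf⟩, ⟨hde, hdf⟩, hef⟩ :=
      nodup6 hnd
    have hn3 : (Kst U x).ncard = 3 := by rw [hKx]; exact ncard_triple hab hac hbc
    have hKu : Kst U u = (Kst U x)ᶜ := by
      have h5 : ({d, e, f} : Set (Fin 6)) = (Kst U x)ᶜ := by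
        rw [hKx]
        ext i
        have hall : i = a ∨ i = b ∨ i = c ∨ i = d ∨ i = e ∨ i = f := by
          have h1 : (Finset.univ : Finset (Fin 6)) = [a, b, c, d, e, f].toFinset :=
            (Finset.eq_univ_of_card _ (by rw [List.toFinset_card_of_nodup hnd]; rfl)).symm
          have h2 := Finset.mem_univ i
          rw [h1] at h2
          simpa using h2
        simp only [Set.mem_insert_iff, Set.mem_singleton_iff, Set.mem_compl_iff, not_or]
        constructor
        · rintro (rfl | rfl | rfl)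
          · exact ⟨had.symm, hbd.symm, hcd.symm⟩
          · exact ⟨hae.symm, hbe.symm, hce.symm⟩
          · exact ⟨haf.symm, hbf.symm, hcf.symm⟩
        · rintro ⟨h6, h7, h8⟩
          tauto
      rw [← h5]
      symm
      refine Set.eq_of_subset_of_ncard_le ?_ ?_ (Set.toFinite _)
      · rintro m (rfl | rfl | rfl)
        · exact hdef.1
        · exact hdef.2.1
        · exact hdef.2.2
      · rw [ncard_triple hde hdf hef]
        exact h3 u (hB3 x hx u hu)
    have h6 := hG.comp x (hG.sub v (mem_closedBall_self zero_le_one) hx) u ?_ hn3 hKu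
    · have h7 : dist u x ≤ 1 := hu
      rw [dist_comm] at h7
      linarith
    · have h7 : dist u x ≤ 1 := hu
      have h8 : dist x v ≤ 1 := hx
      have h9 := dist_triangle u x v
      show dist u v ≤ 1 + 1
      linarith
  · obtain ⟨⟨hab, hac, had, hae, haf⟩, ⟨hbc, hbd, hbe, hbf⟩, ⟨hcd, hce, hcf⟩, ⟨hde, hdf⟩, hef⟩ :=
      nodup6 hnd
    have hn3 : (Kst U x).ncard = 3 := by rw [hKx]; exact ncard_triple hab hac hbc
    have hd : d ∉ Kst U x := by rw [hKx]; simp [had.symm, hbd.symm, hcd.symm]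
    have he : e ∉ Kst U x := by rw [hKx]; simp [hae.symm, hbe.symm, hce.symm]
    obtain ⟨N, hN⟩ := oddK h hK hn3 (fun y hy hyX => hZ y hyX (hB3 x hx y hy.le))
      (c := d) (d := e) hd he hde
    filter_upwards [eventually_ge_atTop N] with j hj l hper hl
    have hjN : N ≤ 6 * 2 ^ j := by
      have h1 : j < 2 ^ j := Nat.lt_two_pow_self
      omega
    have h5 := hN (6 * 2 ^ j) hjN l (fun k hk => ?_) hper
    · refine Eq.trans (Finset.sum_congr rfl fun k _ => ?_) h5
      unfold eps
      have key : ∀ p q d e : Fin 6, d ≠ e → ((p ≠ q ∧ ({d, e} : Finset (Fin 6)) = {p, q}) ↔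
          ((p = d ∧ q = e) ∨ (p = e ∧ q = d))) := by decide +kernel
      by_cases h6 : l k ≠ l (k + 1) ∧ ({d, e} : Finset (Fin 6)) = {l k, l (k + 1)}
      · rw [if_pos h6, if_pos ((key _ _ _ _ hde).1 h6)]
      · rw [if_neg h6, if_neg fun h7 => h6 ((key _ _ _ _ hde).2 h7)]
    · refine ⟨?_, (hl k hk).2⟩
      have h6 := (hl k hk).1
      unfold Vale.Agent.P032.S5.pt at h6
      have e1 : (((2 ^ j : ℕ) : ℝ) / 2 ^ j) = 1 := by
        push_cast
        exact div_self (by positivity)
      have e2 : (2 * Real.pi * k / ((6 * 2 ^ j : ℕ) : ℝ)) = Real.pi / 3 * k / 2 ^ j := by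
        push_cast
        field_simp
        ring
      rw [e1, Complex.ofReal_one, one_mul] at h6
      rw [e2]
      exact h6

open Vale.Agent.P032.S5 Vale.Agent.P032.S5.H783 in
theorem Mx.no3_core {U : Fin 6 → Set ℂ} (h : Mx U) {v : ℂ} (hv : Kst U v = {3, 4, 5})
    (hZ : ∀ x ∈ XX U, dist x v ≤ 3 → (Pal U x).ncard ≤ 3) : False := by
  classical
  have hL := h.lamI_Kst hZ
  have hG : GeoI (Kst U) (closedBall v 1) (closedBall v (1 + 1)) :=
    h.geoI_ball (fun x hx hd => hZ x hx (by linarith))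
  have h3 : ∀ x, dist x v ≤ 3 → (Kst U x).ncard ≤ 3 := fun x hx => h.Kst_le_three fun hX => hZ x hX hx
  have hK := car_Kst h
  refine End.cech_end (v := v) hL hG Subset.rfl (Kst_nhd U) (fun x _ => h.Kst_nonempty x) hv ?_ ?_ ?_
  · intro p hp Q hQB hQ hQp x hx y hy
    obtain ⟨i, j, hij, rfl⟩ := Finset.card_eq_two.1 hp
    refine h.conn_lt hij hQ (fun z hz => hQp z hz i (by simp)) (fun z hz => hQp z hz j (by simp))
      (fun z hz => h3 z ?_) hx hy
    have : dist z v ≤ 1 := hQB hz
    linarith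
  · intro y hy
    have h4 := h.Kst_not_sub hy (h3 v (by rw [dist_self]; norm_num))
    obtain ⟨c, hc1, hc2⟩ := not_subset.1 h4
    exact ⟨c, hc1, hc2⟩
  · have hc3 : (Kst U v).ncard = 3 := by
      rw [hv]; exact ncard_triple (by decide) (by decide) (by decide)
    obtain ⟨N, hN⟩ := oddK h hK hc3 (fun y hy hyX => hZ y hyX (by rw [hy]; norm_num))
      (c := 0) (d := 1) (by rw [hv]; decide) (by rw [hv]; decide) (by decide)
    intro M
    refine ⟨max M N, le_max_left _ _, fun l hper hl hlv => ?_⟩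
    have h5 := hN (max M N) (le_max_right _ _) l (fun k _ => ⟨?_, hlv k⟩) ?_
    · refine Eq.trans (Finset.sum_congr rfl fun k _ => ?_) h5
      have key : ∀ a b : Fin 6, ({a, b} : Finset (Fin 6)) = {0, 1} ↔
          ((a = 0 ∧ b = 1) ∨ (a = 1 ∧ b = 0)) := by decide
      by_cases h6 : ({l k, l (k + 1)} : Finset (Fin 6)) = {0, 1}
      · rw [if_pos h6, if_pos ((key _ _).1 h6)]
      · rw [if_neg h6, if_neg fun h7 => h6 ((key _ _).2 h7)]
    · have := hl k
      unfold cis at this
      exact this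
    · have := hper 0
      rwa [zero_add] at this

/-- **No six-coloured maximal family with at most three colours at every point of `X` in a disc
of radius six.** -/
theorem no3 {U : Fin 6 → Set ℂ} (h : Mx U) (c : ℂ)
    (hZ : ∀ x ∈ XX U, dist x c ≤ 6 → (Pal U x).ncard ≤ 3) : False := by
  obtain ⟨v, hvc, hv3⟩ := h.exists_three c
  have hv3' : (Kst U v).ncard = 3 := le_antisymm
    (h.Kst_le_three fun hX => hZ v hX (by linarith)) hv3
  obtain ⟨σ, hσ⟩ := exists_perm hv3'
  have h' := h.perm σ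
  refine h'.no3_core (v := v) (by rw [Kst_perm]; exact hσ) fun x hx hd => ?_
  rw [XX_perm] at hx
  have h1 := hZ x hx (by have := dist_triangle x v c; linarith)
  have h2 : Pal (fun i => U (σ i)) x = σ ⁻¹' Pal U x := rfl
  rw [h2, Set.ncard_preimage_of_injective_subset_range σ.injective
    (by rw [σ.surjective.range_eq]; exact subset_univ _)]
  exact h1

end Vale.Agent.P032.Six
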