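import Vale.Agent.P032.S5.LamK
import Vale.Agent.P032.S5.FrzOff
import Vale.Agent.P032.S5.H180.Odd
import Vale.Agent.P032.S5.H483.GeoK

/-!
# P032: the state of the reduced palettes

`Mx.odd_Ks` : at every three-coloured point (of `XX` or not) the polar rings are odd.
`Mx.lamI_Ks` : the interface `LamI` for the closed cover `Ks`.
-/

open Set Filter Topology Metric

noncomputable section

namespace Vale.Agent.P032.S5

open Vale.Agent.P032.Six Vale.Agent.P032.H180 Vale.Agent.P032.S5.H180 Vale.Agent.P032.S5.H783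

variable {U : Fin 6 → Set ℂ}

theorem car_Kst' (h : Mx U) : Car U (Kst U) where
  onX := fun _ hx => Kst_XX hx
  offX := fun _ hx _ hi => h.Kst_mem hx hi
  usc := Kst_nhd U
  ne := h.Kst_nonempty

/-- no point of the closed disc about `x` has the complementary palette -/
theorem no_compl (h : Mx U) {x : ℂ}
    (hZ : ∀ q ∈ XX U, dist q x ≤ 1 → (Pal U q).ncard ≤ 3) {d e f : Fin 6}
    (h3 : (Kst U x).ncard = 3) (hcov : ∀ i, i ∉ Kst U x ↔ i = d ∨ i = e ∨ i = f) {u : ℂ}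
    (hu : dist u x ≤ 1) : ¬ (d ∈ Kst U u ∧ e ∈ Kst U u ∧ f ∈ Kst U u) := by
  rintro ⟨hd, he, hf⟩
  have h3u : (Kst U u).ncard ≤ 3 := h.Kst_le_three fun hX => hZ u hX hu
  have hsub : (Kst U x)ᶜ ⊆ Kst U u := by
    intro i hi
    rcases (hcov i).1 hi with rfl | rfl | rfl
    · exact hd
    · exact he
    · exact hf
  have hc3 : ((Kst U x)ᶜ).ncard = 3 := by
    rw [Set.ncard_compl, h3, Nat.card_eq_fintype_card, Fintype.card_fin]
  have heq : (Kst U x)ᶜ = Kst U u :=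
    Set.eq_of_subset_of_ncard_le hsub (by rw [hc3]; exact h3u) (Set.toFinite _)
  have hR : Red U (Kst U) :=
    ⟨fun _ hx => Kst_XX hx, fun _ hx _ hi => h.Kst_mem hx hi, h.Kst_nonempty⟩
  have h2 : 2 ≤ dist x u := by
    refine h.comp_le hR (fun i => ?_) (fun i hi hi' => ?_) h3.le h3u
      (fun q hq hqx => hZ q hq hqx.le)
    · rw [← heq]
      exact em _
    · rw [← heq] at hi'
      exact hi' hi
  rw [dist_comm] at h2
  linarith

/-- **The odd ring** at every three-coloured point -/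
theorem odd_Kst (h : Mx U) {x : ℂ}
    (hZ : ∀ q ∈ XX U, dist q x ≤ 1 → (Pal U q).ncard ≤ 3) (h3 : (Kst U x).ncard = 3)
    {d e : Fin 6} (hd : d ∉ Kst U x) (he : e ∉ Kst U x) (hde : d ≠ e) :
    ∃ N : ℕ, ∀ n : ℕ, N ≤ n → ∀ lab : ℕ → Fin 6,
      (∀ k ≤ n, lab k ∈ Kst U (x + cis (2 * Real.pi * k / n)) ∧ lab k ∉ Kst U x) →
      lab n = lab 0 → ∑ k ∈ Finset.range n, eps (lab k) (lab (k + 1)) {d, e} = 1 := by
  by_cases hx : x ∈ XX U
  · have hP : Pal U x = Kst U x := (Kst_XX hx).symm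
    have := odd_ring h (car_Kst' h) hx (by rw [hP]; exact h3)
      (fun y hy hyX => hZ y hyX hy.le) (c := d) (d := e) (by rw [hP]; exact hd)
      (by rw [hP]; exact he) hde
    rwa [hP] at this
  · obtain ⟨f, hdf, hef, hcov⟩ := exists_compl h3 hd he hde
    have hdis : ∀ y, dist y x = 1 → Disjoint (Kst U x) (Pal U y) := fun y hy =>
      h.Kst_disj (by rw [dist_comm]; exact hy) hx
    have hnu : ∀ y, dist y x = 1 → ∃ i, i ∉ Kst U x ∧ i ∉ Kst U y := by
      intro y hy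
      by_contra hcon
      push Not at hcon
      exact no_compl h hZ h3 hcov hy.le ⟨hcon d hd, hcon e he, hcon f ((hcov f).2 (by simp))⟩
    have hne : ∀ y, dist y x = 1 → (Kst U y \ Kst U x).Nonempty := by
      intro y hy
      obtain ⟨t, ht, ht'⟩ := h.Kst_not_sub' hy h3.le
      exact ⟨t, ht, ht'⟩
    refine odd_of_not_frz hcov hde hef hdf (Kst_nhd U) hne hnu ?_ ?_
    · intro y z hy hz hyz hsub
      refine h.Kst_not_sub (x := z) (y := y) hyz (h.Kst_le_three fun hX => hZ z hX hz.le)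
        fun i hi => hsub ⟨hi, fun hi' => ?_⟩
      exact Set.disjoint_left.1 (hdis y hy) hi' (Kst_sub y hi)
    · refine not_Frz_off h (fun y hy => ?_) (fun y hy i hi => ?_) (fun y hy => ?_)
      · obtain ⟨i, hi, hi'⟩ := hne y hy
        obtain ⟨l, hl⟩ := exists_col ((hcov i).1 hi')
        exact ⟨l, by rw [hl]; exact hi⟩
      · obtain ⟨l, hl⟩ := exists_col ((hcov i).1 fun hi' =>
          Set.disjoint_left.1 (hdis y hy) hi' (Kst_sub y hi))
        exact ⟨l, hl.symm⟩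
      · obtain ⟨i, hi, hi'⟩ := hnu y hy
        obtain ⟨l, hl⟩ := exists_col ((hcov i).1 hi)
        exact ⟨l, by rw [hl]; exact hi'⟩

theorem pt_ring_cis (x : ℂ) (j k : ℕ) :
    S5.pt x j (2 ^ j) k = x + cis (2 * Real.pi * k / ((6 * 2 ^ j : ℕ) : ℝ)) := by
  unfold S5.pt cis
  have h1 : ((((2 ^ j : ℕ) : ℝ) / 2 ^ j : ℝ) : ℂ) = 1 := by
    push_cast
    exact div_self (pow_ne_zero _ two_ne_zero)
  have h2 : (Real.pi / 3 * (k : ℝ) / 2 ^ j : ℝ) = 2 * Real.pi * k / ((6 * 2 ^ j : ℕ) : ℝ) := by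
    push_cast
    field_simp
    ring
  rw [h1, one_mul, h2]

/-- the ring statement, in the form of the polar mesh -/
theorem odd_mesh (h : Mx U) {x : ℂ}
    (hZ : ∀ q ∈ XX U, dist q x ≤ 1 → (Pal U q).ncard ≤ 3) (h3 : (Kst U x).ncard = 3)
    {d e : Fin 6} (hd : d ∉ Kst U x) (he : e ∉ Kst U x) (hde : d ≠ e) :
    ∀ᶠ j : ℕ in atTop, ∀ g : ℕ → Fin 6, g (6 * 2 ^ j) = g 0 →
      (∀ k ≤ 6 * 2 ^ j, g k ∈ Kst U (S5.pt x j (2 ^ j) k) ∧ g k ∉ Kst U x) →
        ∑ k ∈ Finset.range (6 * 2 ^ j), eps (g k) (g (k + 1)) {d, e} = 1 := by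
  obtain ⟨N, hN⟩ := odd_Kst h hZ h3 hd he hde
  filter_upwards [eventually_ge_atTop N] with j hj g hper hg
  have hNj : N ≤ 6 * 2 ^ j := by
    have := (Nat.lt_two_pow_self (n := j)).le
    omega
  refine hN _ hNj g (fun k hk => ?_) hper
  rw [← pt_ring_cis]
  exact hg k hk

/-- **The state of the reduced palettes.** -/
theorem lamI_Kst (h : Mx U) {B : Set ℂ}
    (hZ : ∀ x ∈ B, ∀ q ∈ XX U, dist q x ≤ 2 → (Pal U q).ncard ≤ 3) :
    LamI (Kst U) B (lam3 (Kst U)) := by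
  have hZ1 : ∀ x ∈ B, ∀ q ∈ XX U, dist q x ≤ 1 → (Pal U q).ncard ≤ 3 := fun x hx q hq hqx =>
    hZ x hx q hq (by linarith)
  have hx3 : ∀ x ∈ B, (Kst U x).ncard ≤ 3 := fun x hx =>
    h.Kst_le_three fun hX => hZ1 x hx x hX (by rw [dist_self]; norm_num)
  have key : ∀ a b c d e f : Fin 6, [a, b, c, d, e, f].Nodup → ∀ S : Set (Fin 6), S = {a, b, c} →
      S.ncard = 3 ∧ ∀ i, i ∉ S ↔ i = d ∨ i = e ∨ i = f := by
    intro a b c d e f hnd S hS
    subst hS
    have hnd' := hnd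
    simp only [List.nodup_cons, List.mem_cons, List.not_mem_nil, or_false, not_or] at hnd'
    refine ⟨?_, fun i => ?_⟩
    · rw [Set.ncard_eq_three]
      exact ⟨a, b, c, hnd'.1.1, hnd'.1.2.1, hnd'.2.1.1, rfl⟩
    · have h1 : ({a, b, c, d, e, f} : Finset (Fin 6)) = Finset.univ := by
        apply Finset.eq_univ_of_card
        have := List.toFinset_card_of_nodup hnd
        simpa using this
      have hi : i ∈ ({a, b, c, d, e, f} : Finset (Fin 6)) := by rw [h1]; simp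
      simp only [Finset.mem_insert, Finset.mem_singleton] at hi
      simp only [Set.mem_insert_iff, Set.mem_singleton_iff, not_or]
      rcases hi with rfl | rfl | rfl | rfl | rfl | rfl <;> tauto
  refine lamI_of (Kst_nhd U) (fun y => h.Kst_nonempty y) (fun x hx u hu => ?_)
    (fun x a ha y hy => ?_) (fun x hx y hy => ?_) ?_ ?_
  · exact h.Kst_le_three fun hX => hZ1 x hx u hX (mem_closedBall.1 hu)
  · exact h.Kst_ne_single ha hy
  · exact h.Kst_not_sub' hy (hx3 x hx)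
  · intro x hx a b c d e f hnd hK u hu
    obtain ⟨h3, hcov⟩ := key a b c d e f hnd _ hK
    exact no_compl h (hZ1 x hx) h3 hcov (mem_closedBall.1 hu)
  · intro x hx a b c d e f hnd hK
    obtain ⟨h3, hcov⟩ := key a b c d e f hnd _ hK
    refine odd_mesh h (hZ1 x hx) h3 ((hcov d).2 (by simp)) ((hcov e).2 (by simp)) ?_
    rintro rfl
    simp at hnd

theorem lamI_Ks (h : Mx U) {v : ℂ} {r : ℝ}
    (hZ : ∀ x ∈ XX U, dist x v ≤ r + 2 → (Pal U x).ncard ≤ 3) :
    LamI (fun x => (Ks U x : Set (Fin 6))) (closedBall v r)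
      (lam3 (fun x => (Ks U x : Set (Fin 6)))) := by
  have e : (fun x => (Ks U x : Set (Fin 6))) = Kst U := funext (coe_Ks U)
  rw [e]
  refine lamI_Kst h fun x hx q hq hqx => hZ q hq ?_
  have := mem_closedBall.1 hx
  linarith [dist_triangle q x v]

end Vale.Agent.P032.S5
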